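import Mathlib

/-! P216 Basic: internal definitions (FROZEN, owner helper98).
Goal: a closed Riemannian manifold with enough isometries has infinitely many closed geodesics.
Everything except Riem* and Ess* is done in a compact metric space with unique short segments. -/

open Set Filter Topology

noncomputable section

namespace Vale.Agent.P216

/-- Unique short segments. -/
structure Seg (X : Type) [MetricSpace X] where
  ρ : ℝ
  pos : 0 < ρ
  c : X → X → ℝ → X
  zero : ∀ x y, dist x y ≤ ρ → c x y 0 = x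
  one : ∀ x y, dist x y ≤ ρ → c x y 1 = y
  dist_eq : ∀ x y, dist x y ≤ ρ → ∀ s ∈ Icc (0 : ℝ) 1, ∀ t ∈ Icc (0 : ℝ) 1,
    dist (c x y s) (c x y t) = |s - t| * dist x y
  uniq : ∀ x y, dist x y ≤ ρ → ∀ t ∈ Icc (0 : ℝ) 1, ∀ z, dist x z ≤ t * dist x y →
    dist z y ≤ (1 - t) * dist x y → z = c x y t

variable {X : Type} [MetricSpace X]

/-- Local geodesic of speed `a`. -/
def LG (γ : ℝ → X) (a : ℝ) : Prop :=
  ∃ δ > 0, ∀ s t, |s - t| ≤ δ → dist (γ s) (γ t) = a * |s - t|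

/-- Closed local geodesic. -/
def CG (γ : ℝ → X) : Prop := (∃ a > 0, LG γ a) ∧ ∃ τ > 0, ∀ t, γ (t + τ) = γ t

/-- Local geodesics do not branch. -/
def NB (X : Type) [MetricSpace X] : Prop :=
  ∀ (γ γ' : ℝ → X) (a : ℝ), LG γ a → LG γ' a → ∀ t₀, γ =ᶠ[𝓝 t₀] γ' → γ = γ'

/-- Maps homotopic to the identity are onto. -/
def Ess (X : Type) [TopologicalSpace X] : Prop :=
  ∀ h : X × ℝ → X, Continuous h → (∀ x, h (x, 1) = x) → Function.Surjective fun x => h (x, 0)

/-- No closed local geodesic is reversed by `σ`. -/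
def NoRef (σ : X → X) : Prop := ¬ ∃ γ : ℝ → X, CG γ ∧ ∀ t, γ (-t) = σ (γ t)

variable {n : ℕ}

/-- All steps of the polygon are at most `η`. -/
def St (η : ℝ) (x : ZMod n → X) : Prop := ∀ i, dist (x i) (x (i + 1)) ≤ η

/-- Polygons reversed by `σ`. -/
def Rf (σ : X → X) (x : ZMod n → X) : Prop := ∀ i, x (-i) = σ (x i)

/-- Polygons translated by `σ`. -/
def Tr (σ : X → X) (k : ZMod n) (x : ZMod n → X) : Prop := ∀ i, x (i + k) = σ (x i)

/-- The energy. -/
def En [NeZero n] (x : ZMod n → X) : ℝ := ∑ i, dist (x i) (x (i + 1)) ^ 2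

/-- The curve through the vertices. -/
def pol (S : Seg X) (x : ZMod n → X) (t : ℝ) : X :=
  S.c (x (⌊t⌋ : ℤ)) (x ((⌊t⌋ : ℤ) + 1)) (Int.fract t)

/-- The polygon of midpoints. -/
def half (S : Seg X) (x : ZMod n → X) : ZMod n → X := fun i => S.c (x i) (x (i + 1)) (1 / 2)

/-- The Birkhoff shortening. -/
def bir (S : Seg X) (x : ZMod n → X) : ZMod n → X := fun i => half S (half S x) (i - 1)

/-- Clamping to the unit interval. -/
def cl (t : ℝ) : ℝ := max 0 (min t 1)

theorem continuous_cl : Continuous cl := by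
  unfold cl
  fun_prop
theorem cl_mem (t : ℝ) : cl t ∈ Icc (0 : ℝ) 1 :=
  ⟨le_max_left _ _, max_le zero_le_one (min_le_right _ _)⟩
theorem cl_of_mem {t : ℝ} (h : t ∈ Icc (0 : ℝ) 1) : cl t = t := by
  rw [cl, min_eq_left h.2, max_eq_right h.1]
theorem cl_zero : cl 0 = 0 := cl_of_mem ⟨le_rfl, zero_le_one⟩
theorem cl_one : cl 1 = 1 := cl_of_mem ⟨zero_le_one, le_rfl⟩

/-- Both ends of every path of the family are fixed by `σ`. -/
def Ends {K : Type} (σ : X → X) (z : K × ℝ → X) : Prop :=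
  ∀ k, σ (z (k, 0)) = z (k, 0) ∧ σ (z (k, 1)) = z (k, 1)

/-- Homotopy of families of paths with ends fixed by `σ`. -/
def Htp {K : Type} [TopologicalSpace K] (σ : X → X) (z z' : K × ℝ → X) : Prop :=
  ∃ Z : ℝ × K × ℝ → X, Continuous Z ∧ (∀ p, Z (0, p) = z p) ∧ (∀ p, Z (1, p) = z' p) ∧
    ∀ s, Ends σ fun p => Z (s, p)

/-- `a` joins every point of `W` to the fixed point set of `σ`. -/
def Sec (σ : X → X) (W : Set X) (a : X × ℝ → X) : Prop :=
  ContinuousOn a (W ×ˢ univ) ∧ ∀ x ∈ W, a (x, 1) = x ∧ σ (a (x, 0)) = a (x, 0)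

end Vale.Agent.P216
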