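import Vale.Agent.P216.SegL

/-! P216 Bir (TASK, helper names start with bir_).
half_le: triangle inequality through x (i + 1), dl, dr.  en_half: d' i ^ 2 ≤ ((d i + d (i+1)) / 2) ^ 2 ≤ (d i ^ 2 + d (i+1) ^ 2) / 2
and ∑ i, d (i + 1) ^ 2 = ∑ i, d i ^ 2 (Equiv.sum_comp (Equiv.addRight 1)).  en_eq: equality in every term (Finset.sum_eq_sum_iff_of_le),
so d (i + 1) = d i and d' i = d i; d is constant by induction on naturals (ZMod.natCast_zmod_val or ZMod.natCast_rightInverse).
bir_rf: σ (half x j) = half x (-j-1) (Seg.map, Seg.rev at 1/2), twice. -/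

open Set Filter Topology

noncomputable section

namespace Vale.Agent.P216

variable {X : Type} [MetricSpace X] {n : ℕ} (S : Seg X)

theorem bir_mem : (1 / 2 : ℝ) ∈ Icc (0 : ℝ) 1 := ⟨by norm_num, by norm_num⟩

theorem bir_dl {x : ZMod n → X} (hx : St S.ρ x) (i : ZMod n) :
    dist (x i) (half S x i) = dist (x i) (x (i + 1)) / 2 := by
  rw [half, S.dl (hx i) bir_mem]
  ring

theorem bir_dr {x : ZMod n → X} (hx : St S.ρ x) (i : ZMod n) :
    dist (half S x i) (x (i + 1)) = dist (x i) (x (i + 1)) / 2 := by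
  rw [half, S.dr (hx i) bir_mem]
  ring

theorem bir_mono {η : ℝ} (hη : η ≤ S.ρ) {x : ZMod n → X} (hx : St η x) : St S.ρ x :=
  fun i => (hx i).trans hη

theorem half_le {x : ZMod n → X} (hx : St S.ρ x) (i : ZMod n) :
    dist (half S x i) (half S x (i + 1)) ≤
      (dist (x i) (x (i + 1)) + dist (x (i + 1)) (x (i + 1 + 1))) / 2 := by
  have h1 := bir_dr S hx i
  have h2 := bir_dl S hx (i + 1)
  have h3 := dist_triangle (half S x i) (x (i + 1)) (half S x (i + 1))
  linarith

theorem half_st {η : ℝ} (hη : η ≤ S.ρ) {x : ZMod n → X} (hx : St η x) : St η (half S x) := by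
  intro i
  have h1 := half_le S (bir_mono S hη hx) i
  have h2 := hx i
  have h3 := hx (i + 1)
  linarith

theorem bir_st {η : ℝ} (hη : η ≤ S.ρ) {x : ZMod n → X} (hx : St η x) : St η (bir S x) := by
  intro i
  have h := half_st S hη (half_st S hη hx) (i - 1)
  rw [sub_add_cancel] at h
  simpa only [bir, add_sub_cancel_right] using h

theorem bir_sq {x : ZMod n → X} (hx : St S.ρ x) (i : ZMod n) :
    dist (half S x i) (half S x (i + 1)) ^ 2 ≤
      (dist (x i) (x (i + 1)) ^ 2 + dist (x (i + 1)) (x (i + 1 + 1)) ^ 2) / 2 := by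
  have h1 := pow_le_pow_left₀ dist_nonneg (half_le S hx i) 2
  nlinarith [sq_nonneg (dist (x i) (x (i + 1)) - dist (x (i + 1)) (x (i + 1 + 1)))]

theorem bir_sum [NeZero n] (x : ZMod n → X) :
    ∑ i, (dist (x i) (x (i + 1)) ^ 2 + dist (x (i + 1)) (x (i + 1 + 1)) ^ 2) / 2 = En x := by
  have h : ∑ i, dist (x (i + 1)) (x (i + 1 + 1)) ^ 2 = En x :=
    Equiv.sum_comp (Equiv.addRight (1 : ZMod n)) fun i => dist (x i) (x (i + 1)) ^ 2
  rw [← Finset.sum_div, Finset.sum_add_distrib, h]
  unfold En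
  ring

theorem en_half [NeZero n] {x : ZMod n → X} (hx : St S.ρ x) : En (half S x) ≤ En x := by
  rw [← bir_sum x]
  exact Finset.sum_le_sum fun i _ => bir_sq S hx i

theorem en_bir [NeZero n] {x : ZMod n → X} (hx : St S.ρ x) : En (bir S x) ≤ En (half S x) := by
  have h : En (bir S x) = En (half S (half S x)) := by
    rw [En, En, ← Equiv.sum_comp (Equiv.subRight (1 : ZMod n))
      fun i => dist (half S (half S x) i) (half S (half S x) (i + 1)) ^ 2]
    refine Finset.sum_congr rfl fun i _ => ?_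
    simp only [bir, Equiv.subRight_apply, add_sub_cancel_right, sub_add_cancel]
  rw [h]
  exact en_half S (half_st S le_rfl hx)

theorem en_eq [NeZero n] {x : ZMod n → X} (hx : St S.ρ x) (h : En x ≤ En (half S x)) :
    ∃ a, (∀ i, dist (x i) (x (i + 1)) = a) ∧ ∀ i, dist (half S x i) (half S x (i + 1)) = a := by
  have h1 : En (half S x) = ∑ i,
      (dist (x i) (x (i + 1)) ^ 2 + dist (x (i + 1)) (x (i + 1 + 1)) ^ 2) / 2 := by
    rw [bir_sum]
    exact le_antisymm (en_half S hx) h
  have h2 := (Finset.sum_eq_sum_iff_of_le fun i _ => bir_sq S hx i).1 h1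
  have h3 : ∀ i, dist (x (i + 1)) (x (i + 1 + 1)) = dist (x i) (x (i + 1)) := by
    intro i
    have h4 := h2 i (Finset.mem_univ i)
    have h5 := pow_le_pow_left₀ dist_nonneg (half_le S hx i) 2
    have h6 : (dist (x (i + 1)) (x (i + 1 + 1)) - dist (x i) (x (i + 1))) ^ 2 = 0 :=
      le_antisymm (by nlinarith) (sq_nonneg _)
    exact sub_eq_zero.1 (pow_eq_zero_iff two_ne_zero |>.1 h6)
  have h7 : ∀ k : ℕ, dist (x (k : ZMod n)) (x ((k : ZMod n) + 1)) = dist (x 0) (x (0 + 1)) := by
    intro k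
    induction k with
    | zero => rw [Nat.cast_zero]
    | succ k ih => rw [Nat.cast_succ, h3, ih]
  have h8 : ∀ i, dist (x i) (x (i + 1)) = dist (x 0) (x (0 + 1)) := fun i => by
    rw [← h7 i.val, ZMod.natCast_zmod_val]
  refine ⟨_, h8, fun i => ?_⟩
  have h4 := h2 i (Finset.mem_univ i)
  rw [h3, add_self_div_two] at h4
  rw [← h8 i]
  exact (pow_left_inj₀ dist_nonneg dist_nonneg two_ne_zero).1 h4

theorem bir_near {η : ℝ} (hη : η ≤ S.ρ) {x : ZMod n → X} (hx : St η x) (i : ZMod n) :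
    dist (x i) (bir S x i) ≤ η := by
  have h1 := bir_dl S (bir_mono S hη hx) i
  have h2 := bir_dr S (bir_mono S hη (half_st S hη hx)) (i - 1)
  have h3 := half_st S hη hx (i - 1)
  have h4 := hx i
  rw [sub_add_cancel] at h2 h3
  have h5 := dist_triangle_right (x i) (half S (half S x) (i - 1)) (half S x i)
  unfold bir
  linarith

theorem bir_cont [CompactSpace X] : ContinuousOn (bir S) {x : ZMod n → X | St S.ρ x} := by
  have h : ContinuousOn (half S) {x : ZMod n → X | St S.ρ x} :=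
    continuousOn_pi.2 fun i => S.cont' (continuous_apply i).continuousOn
      (continuous_apply (i + 1)).continuousOn continuousOn_const fun y hy => ⟨hy i, bir_mem⟩
  have h2 : ContinuousOn (half S ∘ half S) {x : ZMod n → X | St S.ρ x} :=
    h.comp h fun x hx => half_st S le_rfl hx
  exact continuousOn_pi.2 fun i => continuousOn_pi.1 h2 (i - 1)

theorem continuous_En [NeZero n] : Continuous (En : (ZMod n → X) → ℝ) := by
  unfold En
  fun_prop

theorem bir_ref {σ : X → X} (hσ : Isometry σ) {x : ZMod n → X} (hx : St S.ρ x) {a : ZMod n}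
    (h : ∀ i, x (a - i) = σ (x i)) (i : ZMod n) : half S x (a - 1 - i) = σ (half S x i) := by
  have h1 : a - 1 - i = a - (i + 1) := by ring
  have h2 : a - (i + 1) + 1 = a - i := by ring
  have h3 := S.rev (hx i) bir_mem
  rw [show (1 - 1 / 2 : ℝ) = 1 / 2 by norm_num] at h3
  have h4 : dist (x (i + 1)) (x i) ≤ S.ρ := by rw [dist_comm]; exact hx i
  unfold half
  rw [h1, h2, h, h, h3, S.map hσ h4 bir_mem]

theorem bir_rf {σ : X → X} (hσ : Isometry σ) {x : ZMod n → X} (hx : St S.ρ x) (h : Rf σ x) :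
    Rf σ (bir S x) := by
  have h0 : ∀ i, x (0 - i) = σ (x i) := fun i => by rw [zero_sub, h i]
  have h2 := bir_ref S hσ (half_st S le_rfl hx) (bir_ref S hσ hx h0)
  intro i
  unfold bir
  rw [← h2 (i - 1)]
  congr 1
  ring

theorem bir_tra {σ : X → X} (hσ : Isometry σ) {k : ZMod n} {x : ZMod n → X} (hx : St S.ρ x)
    (h : Tr σ k x) : Tr σ k (half S x) := by
  intro i
  unfold half
  rw [S.map hσ (hx i) bir_mem, add_right_comm, h i, h (i + 1)]

theorem bir_tr {σ : X → X} (hσ : Isometry σ) {k : ZMod n} {x : ZMod n → X} (hx : St S.ρ x)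
    (h : Tr σ k x) : Tr σ k (bir S x) := by
  have h2 := bir_tra S hσ (half_st S le_rfl hx) (bir_tra S hσ hx h)
  intro i
  unfold bir
  rw [← h2 (i - 1)]
  congr 1
  ring

end Vale.Agent.P216
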