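import Vale.Agent.P216.SegL

/-! P216 Htp (TASK, helper names start with htp_).
htp_trans: Z (s, p) = if s ≤ 1/2 then Z1 (2 s, p) else Z2 (2 s - 1, p), Continuous.if_le.
htp_close: Z (s, p) = S.c (z p) (z' p) (cl s); continuity by Seg.cont' on univ (continuousOn_univ), ends by Seg.map.
rf_poly: K × Icc 0 1 is compact; uniform continuity in the second variable (IsCompact.mem_uniformity_of_prod, or: the map
u ↦ (k ↦ z (k, u)) into C(K, X) is continuous (ContinuousMap.curry), so uniformly continuous on Icc 0 1).  With m = k0 + 1 put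
x k i = if i.val ≤ m then z (k, i.val / m) else σ (z (k, (2 m - i.val) / m)) (ZMod.val_add, ZMod.val_one, ZMod.neg_val, ZMod.val_natCast). -/

open Set Filter Topology

noncomputable section

namespace Vale.Agent.P216

variable {X : Type} [MetricSpace X] {n : ℕ} (S : Seg X)

theorem htp_trans {K : Type} [TopologicalSpace K] {σ : X → X} {z z' z'' : K × ℝ → X}
    (h : Htp σ z z') (h' : Htp σ z' z'') : Htp σ z z'' := by
  obtain ⟨Z, c1, a1, b1, e1⟩ := h
  obtain ⟨Z', c2, a2, b2, e2⟩ := h'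
  refine ⟨fun q => if q.1 ≤ 1 / 2 then Z (2 * q.1, q.2) else Z' (2 * q.1 - 1, q.2), ?_,
    fun p => ?_, fun p => ?_, fun s k => ?_⟩
  · refine Continuous.if_le (c1.comp (by fun_prop)) (c2.comp (by fun_prop)) continuous_fst
      continuous_const fun q hq => ?_
    rw [hq, show (2 : ℝ) * (1 / 2) = 1 by norm_num, sub_self, b1, a2]
  · show (if (0 : ℝ) ≤ 1 / 2 then Z (2 * 0, p) else Z' (2 * 0 - 1, p)) = z p
    rw [if_pos (by norm_num), mul_zero, a1]
  · show (if (1 : ℝ) ≤ 1 / 2 then Z (2 * 1, p) else Z' (2 * 1 - 1, p)) = z'' p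
    rw [if_neg (by norm_num), show (2 : ℝ) * 1 - 1 = 1 by norm_num, b2]
  · by_cases hs : s ≤ 1 / 2
    · simp only [if_pos hs]
      exact e1 (2 * s) k
    · simp only [if_neg hs]
      exact e2 (2 * s - 1) k

theorem htp_close [CompactSpace X] {K : Type} [TopologicalSpace K] {σ : X → X} (hσ : Isometry σ)
    {z z' : K × ℝ → X} (hz : Continuous z) (hz' : Continuous z') (he : Ends σ z) (he' : Ends σ z')
    (hd : ∀ p, dist (z p) (z' p) ≤ S.ρ) : Htp σ z z' := by
  refine ⟨fun q => S.c (z q.2) (z' q.2) (cl q.1), ?_, fun p => ?_, fun p => ?_, fun s k => ?_⟩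
  · exact continuousOn_univ.1 (S.cont' (hz.comp continuous_snd).continuousOn
      (hz'.comp continuous_snd).continuousOn (continuous_cl.comp continuous_fst).continuousOn
      fun q _ => ⟨hd q.2, cl_mem q.1⟩)
  · show S.c (z p) (z' p) (cl 0) = z p
    rw [cl_zero, S.zero _ _ (hd p)]
  · show S.c (z p) (z' p) (cl 1) = z' p
    rw [cl_one, S.one _ _ (hd p)]
  · refine ⟨?_, ?_⟩
    · show σ (S.c (z (k, 0)) (z' (k, 0)) (cl s)) = S.c (z (k, 0)) (z' (k, 0)) (cl s)
      rw [S.map hσ (hd _) (cl_mem s), (he k).1, (he' k).1]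
    · show σ (S.c (z (k, 1)) (z' (k, 1)) (cl s)) = S.c (z (k, 1)) (z' (k, 1)) (cl s)
      rw [S.map hσ (hd _) (cl_mem s), (he k).2, (he' k).2]

theorem htp_unif {K : Type} [TopologicalSpace K] [CompactSpace K] {z : K × ℝ → X}
    (hz : Continuous z) {η : ℝ} (hη : 0 < η) : ∃ δ > 0, ∀ k, ∀ u ∈ Icc (0 : ℝ) 1,
      ∀ v ∈ Icc (0 : ℝ) 1, |u - v| ≤ δ → dist (z (k, u)) (z (k, v)) ≤ η := by
  let f : C(ℝ × K, X) := ⟨fun p => z (p.2, p.1), hz.comp continuous_swap⟩
  have h1 : UniformContinuousOn f.curry (Icc (0 : ℝ) 1) :=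
    isCompact_Icc.uniformContinuousOn_of_continuous f.curry.continuous.continuousOn
  obtain ⟨δ, hδ, h2⟩ := Metric.uniformContinuousOn_iff_le.1 h1 η hη
  exact ⟨δ, hδ, fun k u hu v hv h =>
    (ContinuousMap.dist_apply_le_dist (f := f.curry u) (g := f.curry v) k).trans (h2 u hu v hv h)⟩

/-- The vertices of the doubled path. -/
def htp_y {K : Type} (σ : X → X) (z : K × ℝ → X) (m : ℕ) (k : K) (j : ℕ) : X :=
  if j ≤ m then z (k, j / m) else σ (z (k, (2 * m - j) / m))

omit [MetricSpace X] in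
theorem htp_lo {K : Type} (σ : X → X) (z : K × ℝ → X) {m j : ℕ} (k : K) (h : j ≤ m) :
    htp_y σ z m k j = z (k, j / m) := if_pos h

theorem htp_hi {K : Type} {σ : X → X} {z : K × ℝ → X} (he : Ends σ z) {m j : ℕ} (hm : 0 < m)
    (k : K) (h : m ≤ j) : htp_y σ z m k j = σ (z (k, (2 * m - j) / m)) := by
  have hm' : (m : ℝ) ≠ 0 := Nat.cast_ne_zero.2 hm.ne'
  rcases h.eq_or_lt with rfl | h
  · have e : (2 * (m : ℝ) - m) / m = 1 := by
      field_simp
      ring
    rw [htp_lo σ z k le_rfl, e, div_self hm', (he k).2]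
  · exact if_neg (not_le.2 h)

theorem htp_end {K : Type} {σ : X → X} {z : K × ℝ → X} (he : Ends σ z) {m : ℕ} (hm : 0 < m)
    (k : K) : htp_y σ z m k 0 = htp_y σ z m k (2 * m) := by
  rw [htp_lo σ z k (Nat.zero_le _), htp_hi he hm k (by omega)]
  simp [(he k).1]

theorem htp_mem {m a : ℝ} (hm : 0 < m) (h0 : 0 ≤ a) (h1 : a ≤ m) : a / m ∈ Icc (0 : ℝ) 1 :=
  ⟨div_nonneg h0 hm.le, (div_le_one hm).2 h1⟩

theorem rf_poly {K : Type} [TopologicalSpace K] [CompactSpace K] {σ : X → X} (hσ : Isometry σ)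
    (h2 : ∀ x, σ (σ x) = x) {z : K × ℝ → X} (hz : Continuous z) (he : Ends σ z) {η : ℝ} (hη : 0 < η) :
    ∃ k0 : ℕ, ∃ x : K → ZMod (2 * (k0 + 1)) → X, Continuous x ∧ (∀ k, St η (x k) ∧ Rf σ (x k)) ∧
      ∀ k, ∀ u ∈ Icc (0 : ℝ) 1, dist (z (k, u)) (x k (⌊((k0 + 1 : ℕ) : ℝ) * u⌋ : ℤ)) ≤ η := by
  obtain ⟨δ, hδ, hu⟩ := htp_unif hz hη
  obtain ⟨k0, hk⟩ := exists_nat_one_div_lt hδ
  refine ⟨k0, ?_⟩
  have hm : 0 < k0 + 1 := Nat.succ_pos _
  have hk' : 1 / ((k0 + 1 : ℕ) : ℝ) ≤ δ := by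
    push_cast
    exact hk.le
  generalize k0 + 1 = m at hm hk' ⊢
  have hm' : (0 : ℝ) < m := Nat.cast_pos.2 hm
  have : NeZero (2 * m) := ⟨by omega⟩
  have : Fact (1 < 2 * m) := ⟨by omega⟩
  refine ⟨fun k i => htp_y σ z m k i.val, continuous_pi fun i => ?_, fun k => ⟨fun i => ?_,
    fun i => ?_⟩, fun k u hu' => ?_⟩
  · by_cases h : i.val ≤ m
    · simp only [htp_y, if_pos h]
      exact hz.comp (by fun_prop)
    · simp only [htp_y, if_neg h]
      exact hσ.continuous.comp (hz.comp (by fun_prop))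
  · have hv := ZMod.val_lt i
    have e : htp_y σ z m k (i + 1).val = htp_y σ z m k (i.val + 1) := by
      rw [ZMod.val_add, ZMod.val_one]
      rcases (Nat.succ_le_of_lt hv).eq_or_lt with h | h
      · rw [show i.val + 1 = 2 * m from h, Nat.mod_self, htp_end he hm]
      · rw [Nat.mod_eq_of_lt h]
    show dist (htp_y σ z m k i.val) (htp_y σ z m k (i + 1).val) ≤ η
    rw [e]
    generalize i.val = v at hv
    have hv0 : (0 : ℝ) ≤ v := Nat.cast_nonneg v
    rcases le_or_gt (v + 1) m with h | h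
    · have h' : (v : ℝ) + 1 ≤ m := by exact_mod_cast h
      rw [htp_lo σ z k (by omega), htp_lo σ z k h]
      push_cast
      refine hu k _ (htp_mem hm' hv0 (by linarith)) _ (htp_mem hm' (by linarith) h') ?_
      rw [← sub_div, show (v : ℝ) - (v + 1) = -1 by ring, neg_div, abs_neg,
        abs_of_nonneg (by positivity)]
      exact hk'
    · have h' : (m : ℝ) ≤ v := by exact_mod_cast (by omega : m ≤ v)
      have h'' : (v : ℝ) + 1 ≤ 2 * m := by exact_mod_cast (by omega : v + 1 ≤ 2 * m)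
      rw [htp_hi he hm k (by omega), htp_hi he hm k h.le, hσ.dist_eq]
      push_cast
      refine hu k _ (htp_mem hm' (by linarith) (by linarith)) _
        (htp_mem hm' (by linarith) (by linarith)) ?_
      rw [← sub_div, show 2 * (m : ℝ) - v - (2 * m - (v + 1)) = 1 by ring,
        abs_of_nonneg (by positivity)]
      exact hk'
  · have hv := ZMod.val_lt i
    have e : htp_y σ z m k (-i).val = htp_y σ z m k (2 * m - i.val) := by
      rw [ZMod.neg_val]
      by_cases h : i = 0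
      · rw [if_pos h, h, ZMod.val_zero, Nat.sub_zero, htp_end he hm]
      · rw [if_neg h]
    show htp_y σ z m k (-i).val = σ (htp_y σ z m k i.val)
    rw [e]
    generalize i.val = v at hv
    have e2 : ((2 * m - v : ℕ) : ℝ) = 2 * m - v := by
      rw [Nat.cast_sub hv.le]
      push_cast
      rfl
    rcases le_total v m with h | h
    · rw [htp_hi he hm k (by omega), htp_lo σ z k h, e2, sub_sub_cancel]
    · rw [htp_lo σ z k (by omega), htp_hi he hm k h, h2, e2]
  · have h0 : 0 ≤ (m : ℝ) * u := mul_nonneg hm'.le hu'.1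
    have h1 : (m : ℝ) * u ≤ m := mul_le_of_le_one_right hm'.le hu'.2
    have h3 := Nat.floor_le h0
    have h4 := Nat.lt_floor_add_one ((m : ℝ) * u)
    have h5 : ⌊(m : ℝ) * u⌋₊ ≤ m := by exact_mod_cast h3.trans h1
    show dist (z (k, u)) (htp_y σ z m k ((⌊(m : ℝ) * u⌋ : ℤ) : ZMod (2 * m)).val) ≤ η
    rw [← Int.natCast_floor_eq_floor h0, Int.cast_natCast, ZMod.val_natCast,
      Nat.mod_eq_of_lt (by omega), htp_lo σ z k h5]
    refine hu k _ hu' _ (htp_mem hm' (Nat.cast_nonneg _) (h3.trans h1)) (le_trans ?_ hk')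
    have e : u - (⌊(m : ℝ) * u⌋₊ : ℝ) / m = ((m : ℝ) * u - ⌊(m : ℝ) * u⌋₊) / m := by
      field_simp
    rw [e, abs_of_nonneg (div_nonneg (by linarith) hm'.le)]
    exact div_le_div_of_nonneg_right (by linarith) hm'.le

end Vale.Agent.P216
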