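import Vale.Agent.P216.Desc
import Vale.Agent.P216.Htp

/-! P216 Ctr (TASK, helper names start with ctr_).
η = ρ / 3, rf_poly gives m = k0 + 1 and x.  For a continuous family y : K → ZMod (2 m) → X with St η and Rf σ put
P y (k, u) = pol S (y k) (m * cl u): continuous (pol_cont), Ends (pol_int at 0 and m; y 0 = σ (y 0) and -m = m in ZMod (2 m)).
htp_close gives Htp (z (k, cl u)) (P x) (pol_near, 2 η ≤ ρ) and Htp (P y) (P (bir ∘ y)) (pol_near, bir_near, 3 η ≤ ρ; bir_cont, bir_st,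
bir_rf); induction on N with htp_trans (Function.iterate_succ_apply').  descent with θ = e ^ 2, e = η / (2 m), small_of_en and pol_near:
P y is within 2 η of the family (k, u) ↦ y k 0, which is fixed by σ. -/

open Set Filter Topology

noncomputable section

namespace Vale.Agent.P216

variable {X : Type} [MetricSpace X] {n : ℕ} (S : Seg X)

/-- The family of half polygons. -/
def ctr_P {K : Type} (m : ℕ) (y : K → ZMod n → X) (p : K × ℝ) : X := pol S (y p.1) (m * cl p.2)

theorem ctr_st {η η' : ℝ} (h : η ≤ η') {x : ZMod n → X} (hx : St η x) : St η' x :=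
  fun i => (hx i).trans h

theorem ctr_cont [CompactSpace X] {K : Type} [TopologicalSpace K] (m : ℕ) {y : K → ZMod n → X}
    (hy : Continuous y) (h : ∀ k, St S.ρ (y k)) : Continuous (ctr_P S m y) :=
  (pol_cont S).comp_continuous (f := fun p : K × ℝ => (y p.1, m * cl p.2))
    ((hy.comp continuous_fst).prodMk (continuous_const.mul (continuous_cl.comp continuous_snd)))
    fun p => ⟨h p.1, mem_univ _⟩

theorem ctr_zero {σ : X → X} {x : ZMod n → X} (h : Rf σ x) : σ (x 0) = x 0 := by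
  rw [← h 0, neg_zero]

theorem ctr_ends {K : Type} {σ : X → X} {m : ℕ} {y : K → ZMod (2 * m) → X}
    (h : ∀ k, St S.ρ (y k)) (h' : ∀ k, Rf σ (y k)) : Ends σ (ctr_P S m y) := by
  intro k
  have e0 := pol_int S (h k) 0
  have e1 := pol_int S (h k) m
  rw [Int.cast_zero, Int.cast_zero] at e0
  rw [Int.cast_natCast, Int.cast_natCast] at e1
  have e2 : -(m : ZMod (2 * m)) = m := by
    rw [neg_eq_iff_add_eq_zero, ← two_mul]
    exact_mod_cast ZMod.natCast_self (2 * m)
  simp only [ctr_P, cl_zero, cl_one, mul_zero, mul_one, e0, e1]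
  exact ⟨ctr_zero (h' k), by rw [← h' k, e2]⟩

theorem ctr_iter [CompactSpace X] {K : Type} [TopologicalSpace K] {σ : X → X} (hσ : Isometry σ)
    {m : ℕ} {x : K → ZMod (2 * m) → X} (hx : Continuous x)
    (h : ∀ k, St (S.ρ / 3) (x k) ∧ Rf σ (x k)) {z : K × ℝ → X} (hz : Htp σ z (ctr_P S m x)) (N : ℕ) :
    (Continuous fun k => (bir S)^[N] (x k)) ∧
      (∀ k, St (S.ρ / 3) ((bir S)^[N] (x k)) ∧ Rf σ ((bir S)^[N] (x k))) ∧
      Htp σ z (ctr_P S m fun k => (bir S)^[N] (x k)) := by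
  have hη : S.ρ / 3 ≤ S.ρ := by linarith [S.pos]
  induction N with
  | zero => exact ⟨hx, h, hz⟩
  | succ N ih =>
    obtain ⟨h1, h2, h3⟩ := ih
    simp only [Function.iterate_succ_apply']
    have s1 := fun k => ctr_st hη (h2 k).1
    have s2 := fun k => bir_st S hη (h2 k).1
    have s3 := fun k => bir_rf S hσ (s1 k) (h2 k).2
    have c1 : Continuous fun k => bir S ((bir S)^[N] (x k)) := (bir_cont S).comp_continuous h1 s1
    refine ⟨c1, fun k => ⟨s2 k, s3 k⟩, htp_trans h3 (htp_close S hσ (ctr_cont S m h1 s1)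
      (ctr_cont S m c1 fun k => ctr_st hη (s2 k)) (ctr_ends S s1 fun k => (h2 k).2)
      (ctr_ends S (fun k => ctr_st hη (s2 k)) s3) fun p => ?_)⟩
    have d1 := pol_near S hη (h2 p.1).1 (m * cl p.2)
    have d2 := bir_near S hη (h2 p.1).1 (⌊m * cl p.2⌋ : ℤ)
    have d3 := pol_near S hη (s2 p.1) (m * cl p.2)
    rw [dist_comm] at d1
    exact (dist_triangle4 _ _ _ _).trans ((add_le_add (add_le_add d1 d2) d3).trans (by linarith))

include S in
theorem contract [CompactSpace X] {K : Type} [TopologicalSpace K] [CompactSpace K] {σ : X → X}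
    (hσ : Isometry σ) (h2 : ∀ x, σ (σ x) = x) (hno : NoRef σ) {z : K × ℝ → X} (hz : Continuous z)
    (he : Ends σ z) : ∃ w : K × ℝ → X, (∀ p, σ (w p) = w p) ∧ Htp σ (fun p => z (p.1, cl p.2)) w := by
  have h0 : 0 < S.ρ / 3 := by linarith [S.pos]
  have hη : S.ρ / 3 ≤ S.ρ := by linarith [S.pos]
  obtain ⟨k0, x, hx, h, hd⟩ := rf_poly hσ h2 hz he h0
  have s0 := fun k => ctr_st hη (h k).1
  have H0 : Htp σ (fun p : K × ℝ => z (p.1, cl p.2)) (ctr_P S (k0 + 1) x) := by
    refine htp_close S hσ (hz.comp (continuous_fst.prodMk (continuous_cl.comp continuous_snd)))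
      (ctr_cont S _ hx s0) (fun k => ?_) (ctr_ends S s0 fun k => (h k).2) fun p => ?_
    · simpa only [cl_zero, cl_one] using he k
    · exact (dist_triangle _ _ _).trans ((add_le_add (hd p.1 _ (cl_mem p.2))
        (pol_near S hη (h p.1).1 _)).trans (by linarith))
  have hn : (0 : ℝ) < (2 * (k0 + 1) : ℕ) := by positivity
  have he0 : 0 < S.ρ / 3 / (2 * (k0 + 1) : ℕ) := div_pos h0 hn
  obtain ⟨N, hN⟩ := descent S (n := 2 * (k0 + 1)) hσ hno hη (pow_pos he0 2)
  obtain ⟨h1, h3, h4⟩ := ctr_iter S hσ hx h H0 N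
  have s1 := fun k => ctr_st hη (h3 k).1
  refine ⟨fun p => (bir S)^[N] (x p.1) 0, fun p => ctr_zero (h3 p.1).2, htp_trans h4
    (htp_close S hσ (ctr_cont S _ h1 s1) ((continuous_apply 0).comp (h1.comp continuous_fst))
      (ctr_ends S s1 fun k => (h3 k).2) (fun k => ⟨ctr_zero (h3 k).2, ctr_zero (h3 k).2⟩)
      fun p => ?_)⟩
  have d1 := pol_near S hη (h3 p.1).1 (((k0 + 1 : ℕ) : ℝ) * cl p.2)
  have d2 := small_of_en he0.le (hN _ (h p.1).1 (h p.1).2) (⌊((k0 + 1 : ℕ) : ℝ) * cl p.2⌋ : ℤ)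
  rw [mul_div_cancel₀ _ hn.ne', dist_comm] at d2
  exact (dist_triangle_left _ _ _).trans ((add_le_add d1 d2).trans (by linarith))

end Vale.Agent.P216
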