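import Vale.Agent.P216.PolB
import Vale.Agent.P216.Bir

/-! P216 Desc (TASK, helper names start with desc_).
cg_of_en: en_eq gives a; a > 0 since En x > 0; pol_lg, pol_per with τ = n.
descent: Y = {St η} ∩ {Rf σ} is compact (closed in the compact product) and bir maps Y to Y.  On the compact set Y ∩ {θ ≤ En} the
continuous function En x - En (bir x) is positive (else En x ≤ En (half x), cg_of_en and pol_rf contradict NoRef), so at least κ > 0
(IsCompact.exists_forall_le' or exists_isMinOn; the empty case is trivial).  En ≤ n η ^ 2 on Y and En is non increasing under bir, so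
by induction En (bir^[m] x) ≤ max θ (n η ^ 2 - m κ).
small_of_en: each step is at most √θ; induction on naturals j < n with x (j : ZMod n), ZMod.natCast_zmod_val. -/

open Set Filter Topology

noncomputable section

namespace Vale.Agent.P216

variable {X : Type} [MetricSpace X] {n : ℕ} (S : Seg X)

theorem cg_of_en [NeZero n] {x : ZMod n → X} (hx : St S.ρ x) (h : En x ≤ En (half S x))
    (h0 : 0 < En x) : CG (pol S x) := by
  obtain ⟨a, h1, h2⟩ := en_eq S hx h
  have ha : 0 < a := by
    refine lt_of_le_of_ne (h1 0 ▸ dist_nonneg) fun h' => ?_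
    simp [En, h1, ← h'] at h0
  exact ⟨⟨a, ha, pol_lg S (h1 0 ▸ hx 0) h1 h2⟩, n, Nat.cast_pos.2 (NeZero.pos n), pol_per S x⟩

theorem descent [CompactSpace X] [NeZero n] {σ : X → X} (hσ : Isometry σ) (hno : NoRef σ) {η θ : ℝ}
    (hη : η ≤ S.ρ) (hθ : 0 < θ) :
    ∃ N : ℕ, ∀ x : ZMod n → X, St η x → Rf σ x → En ((bir S)^[N] x) ≤ θ := by
  have hρ : ∀ x : ZMod n → X, St η x → St S.ρ x := fun x hx i => (hx i).trans hη
  have hR : IsClosed {x : ZMod n → X | Rf σ x} := by
    simp only [Rf, setOf_forall]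
    exact isClosed_iInter fun i => isClosed_eq (continuous_apply _)
      (hσ.continuous.comp (continuous_apply _))
  have hK : IsCompact ({x : ZMod n → X | St η x} ∩ {x | Rf σ x} ∩ {x | θ ≤ En x}) :=
    (((isClosed_St η).inter hR).inter (isClosed_le continuous_const continuous_En)).isCompact
  have hc : ContinuousOn (fun x : ZMod n → X => En x - En (bir S x))
      ({x : ZMod n → X | St η x} ∩ {x | Rf σ x} ∩ {x | θ ≤ En x}) :=
    continuous_En.continuousOn.sub (continuous_En.comp_continuousOn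
      ((bir_cont S).mono fun x hx => hρ x hx.1.1))
  obtain ⟨κ, hκ, hκ'⟩ := hK.exists_forall_le' hc (a := 0) fun x hx => by
    by_contra h
    have h1 := en_bir S (hρ x hx.1.1)
    exact hno ⟨pol S x, cg_of_en S (hρ x hx.1.1) (by linarith) (hθ.trans_le hx.2),
      pol_rf S hσ (hρ x hx.1.1) hx.1.2⟩
  have key : ∀ (m : ℕ) (x : ZMod n → X), St η x → Rf σ x →
      St η ((bir S)^[m] x) ∧ Rf σ ((bir S)^[m] x) ∧
        (En ((bir S)^[m] x) ≤ θ ∨ En ((bir S)^[m] x) ≤ n * η ^ 2 - m * κ) := by
    intro m x hx hx'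
    induction m with
    | zero =>
      refine ⟨hx, hx', Or.inr ?_⟩
      have : ∑ i, dist (x i) (x (i + 1)) ^ 2 ≤ ∑ _i : ZMod n, η ^ 2 :=
        Finset.sum_le_sum fun i _ => pow_le_pow_left₀ dist_nonneg (hx i) 2
      simpa [En, ZMod.card] using this
    | succ m ih =>
      obtain ⟨h1, h2, h3⟩ := ih
      rw [Function.iterate_succ_apply']
      refine ⟨bir_st S hη h1, bir_rf S hσ (hρ _ h1) h2, ?_⟩
      have h4 := (en_bir S (hρ _ h1)).trans (en_half S (hρ _ h1))
      rcases le_total (En ((bir S)^[m] x)) θ with h5 | h5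
      · exact Or.inl (h4.trans h5)
      · rcases h3 with h3 | h3
        · exact Or.inl (h4.trans h3)
        · have h6 := hκ' _ ⟨⟨h1, h2⟩, h5⟩
          push_cast
          exact Or.inr (by linarith)
  obtain ⟨N, hN⟩ := exists_nat_ge (n * η ^ 2 / κ)
  rw [div_le_iff₀ hκ] at hN
  refine ⟨N, fun x hx hx' => ?_⟩
  rcases (key N x hx hx').2.2 with h | h
  · exact h
  · linarith

theorem small_of_en [NeZero n] {x : ZMod n → X} {e : ℝ} (he : 0 ≤ e) (h : En x ≤ e ^ 2)
    (i : ZMod n) : dist (x 0) (x i) ≤ n * e := by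
  have h1 : ∀ j, dist (x j) (x (j + 1)) ≤ e := fun j =>
    (pow_le_pow_iff_left₀ dist_nonneg he two_ne_zero).1
      ((Finset.single_le_sum (f := fun i => dist (x i) (x (i + 1)) ^ 2) (fun _ _ => sq_nonneg _)
        (Finset.mem_univ j)).trans h)
  have h2 : ∀ j : ℕ, dist (x 0) (x j) ≤ j * e := fun j => by
    induction j with
    | zero => simp
    | succ j ih =>
      push_cast
      linarith [dist_triangle (x 0) (x j) (x (j + 1)), h1 j]
  have h3 := h2 i.val
  rw [ZMod.natCast_zmod_val] at h3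
  exact h3.trans (mul_le_mul_of_nonneg_right (Nat.cast_le.2 (ZMod.val_lt i).le) he)

end Vale.Agent.P216
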