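import Vale.Agent.P265.V.Tan
import Vale.Agent.P265.V.Emb
import Vale.Agent.P371.Brouwer
import Vale.Agent.P216.Basic

/-! P216 EssD: normal vectors of an embedded manifold (FROZEN). -/

open Set Filter Topology
open scoped ContDiff RealInnerProductSpace

noncomputable section

namespace Vale.Agent.P216

open Vale.Agent.P265.L

variable {Z E : Type} [TopologicalSpace Z] [CompactSpace Z] [NormedAddCommGroup E] [NormedSpace ℝ E]
  {d : ℕ} {ι : Z → EuclideanSpace ℝ (Fin d)}

/-- Normal vectors. -/
def Nor (ι : Z → EuclideanSpace ℝ (Fin d)) (x : Z) (v : EuclideanSpace ℝ (Fin d)) : Prop :=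
  ∀ w ∈ Tan ι x, ⟪v, w⟫ = 0

end Vale.Agent.P216
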