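import Vale.Agent.P216.EssN

/-! P216 EssT (TASK, helper names start with esst_).
Transport of normal vectors along the homotopy (here the homotopy starts at the identity).  N from exists_proj.  By compactness there is
m ≥ 1 with ‖N (h (x, s)) - N (h (x, s'))‖ < 1 for s, s' ∈ Icc 0 1, |s - s'| ≤ 1 / m (the map s ↦ (x ↦ N (h (x, s))) into C(Z, _) is
continuous, so uniformly continuous on Icc 0 1).  A 0 (x, t) = 1, A (j + 1) (x, t) = N (h (x, min (cl t) ((j + 1) / m))) ∘L A j (x, t).
Induction on j: for v ≠ 0 normal at x, A j (x, t) v ≠ 0 is normal at h (x, min (cl t) (j / m)).  Bound: Z × Icc 0 1 is compact and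
A (x, t) = A (x, cl t). -/

open Set Filter Topology
open scoped ContDiff RealInnerProductSpace

noncomputable section

namespace Vale.Agent.P216

open Vale.Agent.P265.L

variable {Z E : Type} [TopologicalSpace Z] [CompactSpace Z] [NormedAddCommGroup E] [NormedSpace ℝ E]
  {d : ℕ} {ι : Z → EuclideanSpace ℝ (Fin d)}

/-- Products of projections along the homotopy. -/
def esst_A {F : Type} [NormedAddCommGroup F] [NormedSpace ℝ F] (M : Z × ℝ → F →L[ℝ] F) (r : ℝ) :
    ℕ → Z × ℝ → F →L[ℝ] F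
  | 0 => fun _ => ContinuousLinearMap.id ℝ F
  | j + 1 => fun p => (M (p.1, min (cl p.2) ((j + 1 : ℕ) * r))).comp (esst_A M r j p)

omit [CompactSpace Z] in
theorem esst_cont {F : Type} [NormedAddCommGroup F] [NormedSpace ℝ F] {M : Z × ℝ → F →L[ℝ] F}
    (hM : Continuous M) (r : ℝ) (j : ℕ) : Continuous (esst_A M r j) := by
  induction j with
  | zero => exact continuous_const
  | succ j ih =>
    exact (hM.comp (continuous_fst.prodMk
      ((continuous_cl.comp continuous_snd).min continuous_const))).clm_comp ih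

omit [TopologicalSpace Z] [CompactSpace Z] in
theorem esst_cl {F : Type} [NormedAddCommGroup F] [NormedSpace ℝ F] (M : Z × ℝ → F →L[ℝ] F)
    (r : ℝ) (j : ℕ) (x : Z) (t : ℝ) : esst_A M r j (x, cl t) = esst_A M r j (x, t) := by
  induction j with
  | zero => rfl
  | succ j ih => simp only [esst_A, ih, cl_of_mem (cl_mem t)]

theorem esst_unif {F : Type} [NormedAddCommGroup F] {M : Z × ℝ → F} (hM : Continuous M) :
    ∃ δ > 0, ∀ s ∈ Icc (0 : ℝ) 1, ∀ s' ∈ Icc (0 : ℝ) 1, |s - s'| < δ →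
      ∀ x, ‖M (x, s) - M (x, s')‖ < 1 := by
  let G : C(ℝ × Z, F) := ⟨fun p => M (p.2, p.1), hM.comp (continuous_snd.prodMk continuous_fst)⟩
  obtain ⟨δ, hδ, h⟩ := Metric.uniformContinuousOn_iff.1
    ((isCompact_Icc (a := (0 : ℝ)) (b := 1)).uniformContinuousOn_of_continuous
      G.curry.continuous.continuousOn) 1 one_pos
  refine ⟨δ, hδ, fun s hs s' hs' hd x => ?_⟩
  rw [← dist_eq_norm]
  exact (ContinuousMap.dist_apply_le_dist (f := G.curry s) (g := G.curry s') x).trans_lt
    (h s hs s' hs' hd)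

theorem exists_transport (hι : IsClosedEmbedding ι) (hc : ∀ p, Nonempty (Par E ι p)) {h : Z × ℝ → Z}
    (hh : Continuous h) (h0 : ∀ x, h (x, 0) = x) :
    ∃ (A : Z × ℝ → EuclideanSpace ℝ (Fin d) →L[ℝ] EuclideanSpace ℝ (Fin d)) (K : ℝ), Continuous A ∧
      1 ≤ K ∧ (∀ p, ‖A p‖ ≤ K) ∧ (∀ x v, Nor ι x v → A (x, 0) v = v) ∧
      ∀ x v, ∀ t ∈ Icc (0 : ℝ) 1, Nor ι x v →
        Nor ι (h (x, t)) (A (x, t) v) ∧ (A (x, t) v = 0 → v = 0) := by
  obtain ⟨N, hN, h1, h2⟩ := exists_proj hι hc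
  have hM : Continuous fun p => N (h p) := hN.comp hh
  obtain ⟨δ, hδ, hu⟩ := esst_unif hM
  obtain ⟨n, hn⟩ := exists_nat_one_div_lt hδ
  have hr : (0 : ℝ) < 1 / (n + 1) := Nat.one_div_pos_of_nat
  have hA := esst_cont hM (1 / (n + 1)) (n + 1)
  obtain ⟨C, hC⟩ := ((isCompact_univ (X := Z)).prod
    (isCompact_Icc (a := (0 : ℝ)) (b := 1))).exists_bound_of_continuousOn hA.continuousOn
  refine ⟨_, max C 1, hA, le_max_right _ _, fun p => ?_, fun x v hv => ?_, fun x v t ht hv => ?_⟩
  · rw [← esst_cl _ _ _ p.1 p.2]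
    exact (hC _ ⟨mem_univ _, cl_mem _⟩).trans (le_max_left _ _)
  · generalize n + 1 = j
    induction j with
    | zero => rfl
    | succ j ih =>
      simp only [esst_A, ContinuousLinearMap.comp_apply, ih, cl_zero]
      rw [min_eq_left (mul_nonneg (Nat.cast_nonneg _) hr.le), h0]
      exact h2 x v hv
  · have hm : ∀ j : ℕ, min t (j * (1 / ((n : ℝ) + 1))) ∈ Icc (0 : ℝ) 1 := fun j =>
      ⟨le_min ht.1 (mul_nonneg (Nat.cast_nonneg _) hr.le), (min_le_left _ _).trans ht.2⟩
    have key : ∀ j : ℕ, Nor ι (h (x, min t (j * (1 / ((n : ℝ) + 1)))))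
        (esst_A (fun p => N (h p)) (1 / (n + 1)) j (x, t) v) ∧
        (esst_A (fun p => N (h p)) (1 / (n + 1)) j (x, t) v = 0 → v = 0) := by
      intro j
      induction j with
      | zero =>
        rw [Nat.cast_zero, zero_mul, min_eq_right ht.1, h0]
        exact ⟨hv, id⟩
      | succ j ih =>
        simp only [esst_A, ContinuousLinearMap.comp_apply, cl_of_mem ht]
        refine ⟨h1 _ _, fun hz => ih.2 ?_⟩
        by_contra hne
        have a1 := hu _ (hm j) _ (hm (j + 1)) (lt_of_le_of_lt (by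
          refine (abs_min_sub_min_le_max _ _ _ _).trans (max_le ?_ ?_)
          · rw [sub_self, abs_zero]
            exact hr.le
          · rw [Nat.cast_succ, add_mul, one_mul, sub_add_cancel_left, abs_neg, abs_of_pos hr]) hn) x
        have a2 := (N (h (x, min t (j * (1 / ((n : ℝ) + 1))))) -
          N (h (x, min t ((j + 1 : ℕ) * (1 / ((n : ℝ) + 1)))))).le_opNorm
            (esst_A (fun p => N (h p)) (1 / (n + 1)) j (x, t) v)
        rw [sub_apply, hz, sub_zero, h2 _ _ ih.1] at a2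
        exact absurd (a2.trans_lt (mul_lt_of_lt_one_left (norm_pos_iff.2 hne) a1)) (lt_irrefl _)
    have k := key (n + 1)
    rwa [Nat.cast_succ, mul_one_div_cancel (Nat.cast_add_one_ne_zero n), min_eq_left ht.2] at k

end Vale.Agent.P216
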