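import Vale.Agent.P216.EssP
import Vale.Agent.P216.EssT

/-! P216 EssF (TASK, helper names start with essf_).
Let h' (x, t) = h (x, 1 - t), q not in the range of h' (., 1).  ε, π from exists_near, A, K from exists_transport for h', e = ε / (2 K),
r y = ‖y - ι (π y)‖, s y = cl (1 - r y / e).  G y = if r y ≤ e then ι (h' (π y, s y)) + A (π y, s y) (y - ι (π y)) else y is continuous
(on r y = e it equals y; continuous_if_le or ContinuousOn.if) and G y - y is bounded.  brouwer_bounded for y ↦ ι q + y - G y gives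
G y = ι q.  If r y > e then y = ι q has r y = 0 (π (ι q + 0) = q).  Otherwise ι q = ι z + w with w normal at z, ‖w‖ < ε, so z = π (ι q) = q,
w = 0, y = ι (π y), s y = 1 and h' (π y, 1) = q. -/

open Set Filter Topology
open scoped ContDiff RealInnerProductSpace

noncomputable section

namespace Vale.Agent.P216

open Vale.Agent.P265.L

variable {Z E : Type} [TopologicalSpace Z] [CompactSpace Z] [NormedAddCommGroup E] [NormedSpace ℝ E]
  {d : ℕ} {ι : Z → EuclideanSpace ℝ (Fin d)}

theorem ess_emb (hι : IsClosedEmbedding ι) (hc : ∀ p, Nonempty (Par E ι p)) : Ess Z := by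
  intro h hh h1 q
  have : Nonempty Z := ⟨q⟩
  obtain ⟨ε, hε, π, hr, hπ, hn, hu⟩ := exists_near hι hc
  have hh' : Continuous fun p : Z × ℝ => h (p.1, 1 - p.2) := by fun_prop
  obtain ⟨A, K, hA, hK, hAK, hA0, hA1⟩ := exists_transport hι hc hh' fun x => by
    simpa only [sub_zero] using h1 x
  obtain ⟨B, hB⟩ := (isCompact_range hι.continuous).isBounded.exists_norm_le
  have hB' : ∀ z, ‖ι z‖ ≤ B := fun z => hB _ ⟨z, rfl⟩
  set e := ε / (2 * K) with he
  have he0 : 0 < e := by positivity
  have hKe : K * e = ε / 2 := by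
    rw [he]
    field_simp
  have he1 : e < ε := by nlinarith
  set s : EuclideanSpace ℝ (Fin d) → ℝ := fun y => cl (1 - ‖y - ι (π y)‖ / e) with hs
  have hsc : Continuous s := continuous_cl.comp (continuous_const.sub (hr.div_const e))
  set g : EuclideanSpace ℝ (Fin d) → EuclideanSpace ℝ (Fin d) := fun y =>
    ι (h (π y, 1 - s y)) + A (π y, s y) (y - ι (π y)) with hg
  have hw : ∀ y, ‖y - ι (π y)‖ ≤ e → ‖A (π y, s y) (y - ι (π y))‖ ≤ ε / 2 := fun y hy =>
    ((A _).le_of_opNorm_le_of_le (hAK _) hy).trans hKe.le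
  have hgc : ContinuousOn g {y | ‖y - ι (π y)‖ ≤ e} := by
    have h2 : ContinuousOn π {y | ‖y - ι (π y)‖ ≤ e} :=
      hπ.mono fun y (hy : _ ≤ e) => hy.trans_lt he1
    have h3 : ContinuousOn (fun y => (π y, s y)) {y | ‖y - ι (π y)‖ ≤ e} :=
      h2.prodMk hsc.continuousOn
    exact ((hι.continuous.comp hh').comp_continuousOn h3).add ((hA.comp_continuousOn h3).clm_apply
      (continuousOn_id.sub (hι.continuous.comp_continuousOn h2)))
  have hG : Continuous fun y => if ‖y - ι (π y)‖ ≤ e then ι q + y - g y else ι q := by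
    refine continuous_if_le hr continuous_const
      ((continuousOn_const.add continuousOn_id).sub hgc) continuousOn_const fun y hy => ?_
    have h2 : s y = 0 := by rw [hs]; beta_reduce; rw [hy, div_self he0.ne', sub_self, cl_zero]
    rw [hg]
    beta_reduce
    rw [h2, sub_zero, h1, hA0 _ _ (hn y)]
    abel
  obtain ⟨y, hy⟩ := Vale.Agent.P371.brouwer_bounded hG (C := 3 * B + e + ε / 2) fun y => by
    have h2 := (norm_nonneg _).trans (hB' q)
    split_ifs with h3
    · have h4 := norm_add_le (ι (h (π y, 1 - s y))) (A (π y, s y) (y - ι (π y)))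
      have h5 := norm_le_norm_add_norm_sub' y (ι (π y))
      have h6 := norm_add_le (ι q) y
      linarith [norm_sub_le (ι q + y) (g y), hw y h3, hB' q, hB' (π y), hB' (h (π y, 1 - s y))]
    · linarith [hB' q]
  have h0 : π (ι q) = q := by
    have := hu q 0 (fun w _ => inner_zero_left w) (by rwa [norm_zero])
    rwa [add_zero] at this
  split_ifs at hy with h3
  · have h4 : g y = ι q := by
      rw [add_sub_assoc, add_comm, ← sub_eq_zero, add_sub_right_comm, sub_sub_cancel_left,
        neg_add_eq_zero] at hy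
      exact hy
    obtain ⟨a1, a2⟩ := hA1 (π y) _ (s y) (cl_mem _) (hn y)
    have h5 := hu _ _ a1 ((hw y h3).trans_lt (half_lt_self hε))
    have h6 : h (π y, 1 - s y) = q := by
      rw [← h0, ← h4]
      exact h5.symm
    have h7 : A (π y, s y) (y - ι (π y)) = 0 := by
      have h8 : ι (h (π y, 1 - s y)) + A (π y, s y) (y - ι (π y)) = ι q := h4
      rwa [h6, add_eq_left] at h8
    have h8 : s y = 1 := by
      rw [hs]; beta_reduce; rw [a2 h7, norm_zero, zero_div, sub_zero, cl_one]
    rw [h8, sub_self] at h6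
    exact ⟨π y, h6⟩
  · refine absurd ?_ h3
    rw [← hy, h0, sub_self, norm_zero]
    exact he0.le

end Vale.Agent.P216
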