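import Vale.Agent.P216.EssD

/-! P216 EssN (TASK, helper names start with essn_).
Use glue with t b = {P | ∀ y, ι y = b → (∀ v, P v ∈ Tan ι y) ∧ ∀ w ∈ Tan ι y, P w = w} (convex by Par.convex_tan).  Near ι p take
b ↦ (c.D (c.ρ b)).comp (fderiv ℝ c.ρ b) on c.O (ContDiffOn.fderiv_of_isOpen, clm_comp); fderiv ρ (ι y) (D (ch y) v) = v by the chain rule
since ρ ∘ ι ∘ ch.symm = id near ch y (Par.inv); Par.tan_iff.  Off the closed range take 0.  N x = adjoint (1 - P (ι x)). -/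

open Set Filter Topology
open scoped ContDiff RealInnerProductSpace

noncomputable section

namespace Vale.Agent.P216

open Vale.Agent.P265.L

variable {Z E : Type} [TopologicalSpace Z] [CompactSpace Z] [NormedAddCommGroup E] [NormedSpace ℝ E]
  {d : ℕ} {ι : Z → EuclideanSpace ℝ (Fin d)}

omit [CompactSpace Z] in
theorem essn_left {p : Z} (c : Par E ι p) {y : Z} (hy : ι y ∈ c.O) (v : E) :
    fderiv ℝ c.ρ (ι y) (c.D (c.ch y) v) = v := by
  obtain ⟨hs, -⟩ := c.inv y hy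
  have hD := vtan_has c (c.ch.map_source hs)
  have e0 : (ι ∘ c.ch.symm) (c.ch y) = ι y := by rw [Function.comp_apply, c.ch.left_inv hs]
  have h1 : HasFDerivAt c.ρ (fderiv ℝ c.ρ (ι y)) ((ι ∘ c.ch.symm) (c.ch y)) := by
    rw [e0]
    exact ((c.sρ.contDiffAt (c.oO.mem_nhds hy)).differentiableAt (by simp)).hasFDerivAt
  have h2 : c.ρ ∘ (ι ∘ c.ch.symm) =ᶠ[𝓝 (c.ch y)] id := by
    filter_upwards [hD.continuousAt.preimage_mem_nhds (c.oO.mem_nhds (e0 ▸ hy)),
      c.ch.open_target.mem_nhds (c.ch.map_source hs)] with u hu hu'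
    exact (c.inv _ hu).2.trans (c.ch.right_inv hu')
  have h3 := (h1.comp _ hD).unique ((hasFDerivAt_id (c.ch y)).congr_of_eventuallyEq h2)
  exact congrArg (fun L : E →L[ℝ] E => L v) h3

theorem exists_proj (hι : IsClosedEmbedding ι) (hc : ∀ p, Nonempty (Par E ι p)) :
    ∃ N : Z → EuclideanSpace ℝ (Fin d) →L[ℝ] EuclideanSpace ℝ (Fin d), Continuous N ∧
      (∀ x v, Nor ι x (N x v)) ∧ ∀ x v, Nor ι x v → N x v = v := by
  obtain ⟨g, h1, h2⟩ := glue
    (E := EuclideanSpace ℝ (Fin d) →L[ℝ] EuclideanSpace ℝ (Fin d))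
    (fun b : EuclideanSpace ℝ (Fin d) =>
      {P | ∀ y, ι y = b → (∀ v, P v ∈ Tan ι y) ∧ ∀ w ∈ Tan ι y, P w = w})
    (fun b P hP P' hP' s t hs ht h y hy => by
      obtain ⟨c⟩ := hc y
      refine ⟨fun v => c.convex_tan ((hP y hy).1 v) ((hP' y hy).1 v) hs ht h, fun w hw => ?_⟩
      show s • P w + t • P' w = w
      rw [(hP y hy).2 w hw, (hP' y hy).2 w hw, ← add_smul, h, one_smul])
    fun b => by
      by_cases hb : b ∈ range ι
      · obtain ⟨p, rfl⟩ := hb
        obtain ⟨c⟩ := hc p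
        have hD : ContDiffOn ℝ ∞ c.D c.ch.target :=
          c.sψ.fderiv_of_isOpen c.ch.open_target le_rfl
        refine ⟨c.O, c.oO.mem_nhds c.mO, fun b => (c.D (c.ρ b)).comp (fderiv ℝ c.ρ b),
          (hD.comp c.sρ c.mρ).clm_comp (c.sρ.fderiv_of_isOpen c.oO le_rfl), ?_⟩
        rintro _ hb y rfl
        have e := (c.inv y hb).2
        refine ⟨fun v => (c.tan_iff hb).2 ⟨fderiv ℝ c.ρ (ι y) v, ?_⟩, fun w hw => ?_⟩
        · show c.D (c.ρ (ι y)) (fderiv ℝ c.ρ (ι y) v) = _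
          rw [e]
        · obtain ⟨v, rfl⟩ := (c.tan_iff hb).1 hw
          show c.D (c.ρ (ι y)) (fderiv ℝ c.ρ (ι y) _) = _
          rw [e, essn_left c hb]
      · exact ⟨(range ι)ᶜ, hι.isClosed_range.isOpen_compl.mem_nhds hb, fun _ => 0,
          contDiffOn_const, fun b' hb' y hy => absurd ⟨y, hy⟩ hb'⟩
  refine ⟨fun x => ContinuousLinearMap.adjoint (1 - g (ι x)), ?_, fun x v w hw => ?_,
    fun x v hv => ?_⟩
  · exact ContinuousLinearMap.adjoint.continuous.comp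
      (continuous_const.sub (h1.continuous.comp hι.continuous))
  · rw [ContinuousLinearMap.adjoint_inner_left]
    show ⟪v, w - g (ι x) w⟫ = 0
    rw [(h2 (ι x) x rfl).2 w hw, sub_self, inner_zero_right]
  · refine ext_inner_right ℝ fun u => ?_
    rw [ContinuousLinearMap.adjoint_inner_left]
    show ⟪v, u - g (ι x) u⟫ = _
    rw [inner_sub_right, hv _ ((h2 (ι x) x rfl).1 u), sub_zero]

end Vale.Agent.P216
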