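import Vale.Agent.P216.EssQ

/-! P216 EssP (TASK, helper names start with essp_).
π y = a nearest point (IsCompact.exists_isMinOn).  ε = 1 / (2 C) with C from quad.  For v normal at x, ‖v‖ < ε and x' ≠ x:
‖ι x + v - ι x'‖ ^ 2 = ‖v‖ ^ 2 - 2 ⟪v, ι x' - ι x⟫ + ‖ι x' - ι x‖ ^ 2 > ‖v‖ ^ 2, so π (ι x + v) = x.  With near_nor every nearest point of y is π y
when ‖y - ι (π y)‖ < ε.  y ↦ ‖y - ι (π y)‖ = infDist y (range ι) is continuous.  Continuity of π on the tube: ultrafilter limits of π y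
are nearest points (tendsto_iff_ultrafilter, or IsCompact.tendsto_nhds_of_unique_mapClusterPt). -/

open Set Filter Topology
open scoped ContDiff RealInnerProductSpace

noncomputable section

namespace Vale.Agent.P216

open Vale.Agent.P265.L

variable {Z E : Type} [TopologicalSpace Z] [CompactSpace Z] [NormedAddCommGroup E] [NormedSpace ℝ E]
  {d : ℕ} {ι : Z → EuclideanSpace ℝ (Fin d)}

theorem exists_near [Nonempty Z] (hι : IsClosedEmbedding ι) (hc : ∀ p, Nonempty (Par E ι p)) :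
    ∃ ε > 0, ∃ π : EuclideanSpace ℝ (Fin d) → Z, (Continuous fun y => ‖y - ι (π y)‖) ∧
      ContinuousOn π {y | ‖y - ι (π y)‖ < ε} ∧ (∀ y, Nor ι (π y) (y - ι (π y))) ∧
      ∀ x v, Nor ι x v → ‖v‖ < ε → π (ι x + v) = x := by
  obtain ⟨C, hC, hq⟩ := quad hι hc
  have hcont : ∀ y : EuclideanSpace ℝ (Fin d), Continuous fun z => ‖y - ι z‖ :=
    fun y => (continuous_const.sub hι.continuous).norm
  have hex : ∀ y : EuclideanSpace ℝ (Fin d), ∃ x, ∀ x', ‖y - ι x‖ ≤ ‖y - ι x'‖ := fun y => by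
    obtain ⟨x, -, hx⟩ := isCompact_univ.exists_isMinOn univ_nonempty (hcont y).continuousOn
    exact ⟨x, fun x' => hx (mem_univ x')⟩
  choose π hπ using hex
  have key : ∀ x v, Nor ι x v → ‖v‖ < 1 / (2 * C) → ∀ x', ‖ι x + v - ι x'‖ ≤ ‖v‖ → x' = x := by
    intro x v hv hε x' h
    have h1 := (le_abs_self _).trans (hq x x' v hv)
    have e : ι x + v - ι x' = v - (ι x' - ι x) := by abel
    rw [e] at h
    have h2 := pow_le_pow_left₀ (norm_nonneg _) h 2
    rw [norm_sub_sq_real] at h2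
    rw [lt_div_iff₀ (by positivity)] at hε
    by_contra hne
    have h3 : 0 < ‖ι x' - ι x‖ ^ 2 :=
      pow_pos (norm_pos_iff.2 (sub_ne_zero.2 fun h4 => hne (hι.injective h4))) 2
    nlinarith
  have hf : Continuous fun y => ‖y - ι (π y)‖ := by
    refine (LipschitzWith.of_le_add fun y y' => ?_).continuous
    refine (hπ y (π y')).trans ?_
    rw [dist_eq_norm, add_comm]
    exact norm_sub_le_norm_sub_add_norm_sub _ _ _
  refine ⟨1 / (2 * C), by positivity, π, hf, fun y hy => ?_, fun y => near_nor (hπ y),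
    fun x v hv hε => key x v hv hε _ ((hπ _ x).trans (by rw [add_sub_cancel_left]))⟩
  refine ContinuousAt.continuousWithinAt
    (isCompact_univ.tendsto_nhds_of_unique_mapClusterPt (Eventually.of_forall fun _ => mem_univ _)
      fun x _ hx => key (π y) _ (near_nor (hπ y)) hy x ?_)
  rw [add_sub_cancel]
  by_contra hlt
  obtain ⟨c, h1, h2⟩ := exists_between (not_le.1 hlt)
  have h3 : ∀ᶠ z in 𝓝 x, c < ‖y - ι z‖ := (hcont y).continuousAt.eventually_const_lt h2
  have h4 : Continuous fun y' => ‖y - y'‖ + ‖y' - ι (π y')‖ :=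
    (continuous_const.sub continuous_id).norm.add hf
  have h5 : ∀ᶠ y' in 𝓝 y, ‖y - y'‖ + ‖y' - ι (π y')‖ < c :=
    h4.continuousAt.eventually_lt_const (by simpa using h1)
  obtain ⟨y', h6, h7⟩ := ((hx.frequently h3).and_eventually h5).exists
  exact absurd ((norm_sub_le_norm_sub_add_norm_sub _ y' _).trans_lt h7) (not_lt.2 h6.le)

end Vale.Agent.P216
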