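import Vale.Agent.P216.EssD

/-! P216 EssQ (TASK, helper names start with essq_).
quad: Φ = ι ∘ ch.symm ∘ ρ is smooth on O, Φ (ι y) = ι y for ι y ∈ O, and fderiv Φ (ι x) v = D (ch x) (fderiv ρ (ι x) v) ∈ Tan ι x.  fderiv Φ is
Lipschitz on a ball around ι p (ContDiffAt.exists_lipschitzOnWith), so on this ball ‖Φ b' - Φ b - fderiv Φ b (b' - b)‖ ≤ L ‖b' - b‖ ^ 2
(Convex.norm_image_sub_le_of_norm_fderiv_le' on ball ∩ closedBall b ‖b' - b‖).  So for each p there are r, C with the estimate for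
ι x, ι x' ∈ ball (ι p) (2 r); if ι x ∈ ball (ι p) r and ‖ι x' - ι x‖ ≥ r use Cauchy-Schwarz with the constant 1 / r.  Finish with
isCompact_univ.induction_on over x.   near_nor: t ↦ ‖y - ι (γ t)‖ ^ 2 has a minimum at 0 (HasDerivAt.norm_sq, IsLocalMin.hasDerivAt_eq_zero). -/

open Set Filter Topology
open scoped ContDiff RealInnerProductSpace

noncomputable section

namespace Vale.Agent.P216

open Vale.Agent.P265.L

variable {Z E : Type} [TopologicalSpace Z] [CompactSpace Z] [NormedAddCommGroup E] [NormedSpace ℝ E]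
  {d : ℕ} {ι : Z → EuclideanSpace ℝ (Fin d)}

theorem essq_tay {B : Type} [NormedAddCommGroup B] [NormedSpace ℝ B] {Φ : B → B} {O : Set B}
    (hO : IsOpen O) (h : ContDiffOn ℝ ∞ Φ O) {a : B} (ha : a ∈ O) :
    ∃ r > 0, ∃ L : ℝ, 0 ≤ L ∧ Metric.ball a r ⊆ O ∧ ∀ b ∈ Metric.ball a r, ∀ b' ∈ Metric.ball a r,
      ‖Φ b' - Φ b - fderiv ℝ Φ b (b' - b)‖ ≤ L * ‖b' - b‖ ^ 2 := by
  have h1 : ContDiffOn ℝ ∞ (fderiv ℝ Φ) O := h.fderiv_of_isOpen hO le_rfl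
  have h2 : ContDiffAt ℝ 1 (fderiv ℝ Φ) a := (h1.contDiffAt (hO.mem_nhds ha)).of_le (by simp)
  obtain ⟨K, t, ht, hK⟩ := h2.exists_lipschitzOnWith
  obtain ⟨r, hr, hs⟩ := Metric.mem_nhds_iff.1 (inter_mem ht (hO.mem_nhds ha))
  refine ⟨r, hr, K, K.2, fun b hb => (hs hb).2, fun b hb b' hb' => ?_⟩
  rw [sq, ← mul_assoc]
  refine ((convex_ball a r).inter (convex_closedBall b ‖b' - b‖)).norm_image_sub_le_of_norm_fderiv_le'
    (fun u hu => (h.contDiffAt (hO.mem_nhds (hs hu.1).2)).differentiableAt (by simp))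
    (fun u hu => ?_) ⟨hb, Metric.mem_closedBall_self (norm_nonneg _)⟩
    ⟨hb', mem_closedBall_iff_norm.2 le_rfl⟩
  exact (hK.norm_sub_le (hs hu.1).1 (hs hb).1).trans
    (mul_le_mul_of_nonneg_left (mem_closedBall_iff_norm.1 hu.2) K.2)

theorem essq_loc {p : Z} (c : Par E ι p) : ∃ r > 0, ∃ C > 0, ∀ x, ι x ∈ Metric.ball (ι p) r →
    ∀ x' v, Nor ι x v → |⟪v, ι x' - ι x⟫| ≤ C * ‖v‖ * ‖ι x' - ι x‖ ^ 2 := by
  have hΦ : ContDiffOn ℝ ∞ ((ι ∘ c.ch.symm) ∘ c.ρ) c.O := c.sψ.comp c.sρ c.mρ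
  have hid : ∀ y, ι y ∈ c.O → ((ι ∘ c.ch.symm) ∘ c.ρ) (ι y) = ι y := fun y hy => by
    obtain ⟨a, b⟩ := c.inv y hy
    show ι (c.ch.symm (c.ρ (ι y))) = ι y
    rw [b, c.ch.left_inv a]
  obtain ⟨r, hr, L, hL, hO, hT⟩ := essq_tay c.oO hΦ c.mO
  refine ⟨r / 2, half_pos hr, L + 2 / r, by positivity, fun x hx x' v hv => ?_⟩
  have hx1 : ι x ∈ Metric.ball (ι p) r := Metric.ball_subset_ball (half_le_self hr.le) hx
  have h0 : 0 ≤ ‖v‖ * ‖ι x' - ι x‖ ^ 2 := by positivity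
  have h3 : 0 ≤ 2 / r := by positivity
  rcases lt_or_ge ‖ι x' - ι x‖ (r / 2) with h | h
  · have hx2 : ι x' ∈ Metric.ball (ι p) r := by
      rw [Metric.mem_ball] at hx ⊢
      linarith [dist_triangle (ι x') (ι x) (ι p), dist_eq_norm (ι x') (ι x)]
    have h1 := hT _ hx1 _ hx2
    rw [hid x (hO hx1), hid x' (hO hx2)] at h1
    have h2 : ⟪v, fderiv ℝ ((ι ∘ c.ch.symm) ∘ c.ρ) (ι x) (ι x' - ι x)⟫ = 0 := by
      refine hv _ ((c.tan_iff (hO hx1)).2 ⟨fderiv ℝ c.ρ (ι x) (ι x' - ι x), ?_⟩)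
      have hρ : HasFDerivAt c.ρ (fderiv ℝ c.ρ (ι x)) (ι x) :=
        ((c.sρ.contDiffAt (c.oO.mem_nhds (hO hx1))).differentiableAt (by simp)).hasFDerivAt
      rw [((vtan_has c (c.mρ (hO hx1))).comp _ hρ).fderiv, (c.inv x (hO hx1)).2]
      rfl
    have h4 := abs_real_inner_le_norm v
      (ι x' - ι x - fderiv ℝ ((ι ∘ c.ch.symm) ∘ c.ρ) (ι x) (ι x' - ι x))
    rw [inner_sub_right, h2, sub_zero] at h4
    nlinarith [mul_le_mul_of_nonneg_left h1 (norm_nonneg v), mul_nonneg h3 h0]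
  · have h1 : 1 ≤ 2 / r * ‖ι x' - ι x‖ := by
      rw [div_mul_eq_mul_div, le_div_iff₀ hr]
      linarith
    nlinarith [abs_real_inner_le_norm v (ι x' - ι x), mul_nonneg hL h0,
      mul_le_mul_of_nonneg_left h1 (mul_nonneg (norm_nonneg v) (norm_nonneg (ι x' - ι x)))]

theorem quad (hι : IsClosedEmbedding ι) (hc : ∀ p, Nonempty (Par E ι p)) :
    ∃ C > 0, ∀ x x' v, Nor ι x v → |⟪v, ι x' - ι x⟫| ≤ C * ‖v‖ * ‖ι x' - ι x‖ ^ 2 := by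
  have key : ∃ C > 0, ∀ x ∈ (univ : Set Z), ∀ x' v, Nor ι x v →
      |⟪v, ι x' - ι x⟫| ≤ C * ‖v‖ * ‖ι x' - ι x‖ ^ 2 := by
    refine isCompact_univ.induction_on (p := fun s => ∃ C > 0, ∀ x ∈ s, ∀ x' v, Nor ι x v →
      |⟪v, ι x' - ι x⟫| ≤ C * ‖v‖ * ‖ι x' - ι x‖ ^ 2) ⟨1, one_pos, fun _ h => h.elim⟩ ?_ ?_ ?_
    · rintro s t hst ⟨C, hC, h⟩
      exact ⟨C, hC, fun x hx => h x (hst hx)⟩
    · rintro s t ⟨C, hC, h⟩ ⟨C', hC', h'⟩
      refine ⟨C + C', add_pos hC hC', fun x hx x' v hv => ?_⟩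
      have h0 : 0 ≤ ‖v‖ * ‖ι x' - ι x‖ ^ 2 := by positivity
      rcases hx with hx | hx
      · nlinarith [h x hx x' v hv, mul_nonneg hC'.le h0]
      · nlinarith [h' x hx x' v hv, mul_nonneg hC.le h0]
    · intro p _
      obtain ⟨c⟩ := hc p
      obtain ⟨r, hr, C, hC, h⟩ := essq_loc c
      exact ⟨ι ⁻¹' Metric.ball (ι p) r, mem_nhdsWithin_of_mem_nhds
        (hι.continuous.continuousAt.preimage_mem_nhds (Metric.ball_mem_nhds _ hr)), C, hC, h⟩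
  obtain ⟨C, hC, h⟩ := key
  exact ⟨C, hC, fun x => h x (mem_univ x)⟩

theorem near_nor {x : Z} {y : EuclideanSpace ℝ (Fin d)} (h : ∀ x', ‖y - ι x‖ ≤ ‖y - ι x'‖) :
    Nor ι x (y - ι x) := by
  rintro w ⟨γ, rfl, hγ⟩
  have h1 := (hγ.const_sub y).norm_sq
  have h2 : IsLocalMin (fun t => ‖y - (ι ∘ γ) t‖ ^ 2) 0 := Eventually.of_forall fun t =>
    pow_le_pow_left₀ (norm_nonneg _) (h (γ t)) 2
  have h3 := h2.hasDerivAt_eq_zero h1
  rw [inner_neg_right, mul_neg, neg_eq_zero, mul_eq_zero] at h3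
  exact h3.resolve_left two_ne_zero

end Vale.Agent.P216
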