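import Vale.Agent.P216.Desc

/-! P216 Free (TASK, helper names start with free_).
free_poly: take a path β from p to σ p (PathConnectedSpace.somePath, Path.extend is uniformly continuous on Icc 0 1), k ≥ 1 with
|u - u'| ≤ 1 / k → dist (β u) (β u') ≤ ρ, and x i = if i.val ≤ k then β (i.val / k) else σ (β ((i.val - k) / k))
(ZMod.val_add, ZMod.val_one, ZMod.val_natCast, omega on the cases).
cg_free: the set of x with St ρ x and Tr σ k x is compact and nonempty; minimise En on it; bir_st, bir_tr, en_bir give En x ≤ En (half x);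
En x = 0 would give x k = x 0 (small_of_en with e = 0), so σ (x 0) = x 0. -/

open Set Filter Topology

noncomputable section

namespace Vale.Agent.P216

variable {X : Type} [MetricSpace X] {n : ℕ} (S : Seg X)

theorem free_chain [PathConnectedSpace X] {ρ : ℝ} (hρ : 0 < ρ) (p q : X) :
    ∃ k : ℕ, ∃ z : ℕ → X, z 0 = p ∧ z (k + 1) = q ∧ ∀ j ≤ k, dist (z j) (z (j + 1)) ≤ ρ := by
  let β := PathConnectedSpace.somePath p q
  have hu : UniformContinuousOn β.extend (Icc (0 : ℝ) 1) :=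
    isCompact_Icc.uniformContinuousOn_of_continuous β.continuous_extend.continuousOn
  obtain ⟨δ, hδ, h⟩ := Metric.uniformContinuousOn_iff.1 hu ρ hρ
  obtain ⟨k, hk⟩ := exists_nat_one_div_lt hδ
  have hk0 : (0 : ℝ) < (k : ℝ) + 1 := by positivity
  have hm : ∀ j : ℕ, j ≤ k + 1 → (j : ℝ) / ((k : ℝ) + 1) ∈ Icc (0 : ℝ) 1 := by
    intro j hj
    refine ⟨by positivity, (div_le_one hk0).2 ?_⟩
    exact_mod_cast hj
  refine ⟨k, fun j => β.extend ((j : ℝ) / ((k : ℝ) + 1)), by simp, ?_, fun j hj => ?_⟩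
  · have : ((k + 1 : ℕ) : ℝ) / ((k : ℝ) + 1) = 1 := by
      push_cast
      exact div_self hk0.ne'
    simp only [this, Path.extend_one]
  · refine (h _ (hm j (by omega)) _ (hm (j + 1) (by omega)) ?_).le
    have : (j : ℝ) / ((k : ℝ) + 1) - ((j + 1 : ℕ) : ℝ) / ((k : ℝ) + 1) = -(1 / ((k : ℝ) + 1)) := by
      push_cast
      ring
    rw [Real.dist_eq, this, abs_neg, abs_of_pos (by positivity)]
    exact hk

theorem free_iter {σ : X → X} (hσ : Isometry σ) (q : ℕ) (a b : X) :
    dist (σ^[q] a) (σ^[q] b) = dist a b := by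
  induction q with
  | zero => rfl
  | succ q ih => rw [Function.iterate_succ_apply', Function.iterate_succ_apply', hσ.dist_eq, ih]

theorem free_seq [PathConnectedSpace X] {ρ : ℝ} (hρ : 0 < ρ) {σ : X → X} (hσ : Isometry σ) :
    ∃ k : ℕ, ∃ y : ℕ → X, (∀ j, y (j + (k + 1)) = σ (y j)) ∧ ∀ j, dist (y j) (y (j + 1)) ≤ ρ := by
  obtain ⟨p⟩ := (inferInstance : Nonempty X)
  obtain ⟨k, z, z0, z1, hz⟩ := free_chain hρ p (σ p)
  refine ⟨k, fun j => σ^[j / (k + 1)] (z (j % (k + 1))), fun j => ?_, fun j => ?_⟩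
  · simp only
    rw [Nat.add_div_right _ (Nat.succ_pos k), Nat.add_mod_right, Function.iterate_succ_apply']
  · simp only
    have hr : j % (k + 1) ≤ k := Nat.lt_succ_iff.1 (Nat.mod_lt _ (Nat.succ_pos k))
    have e := Nat.div_add_mod j (k + 1)
    generalize j / (k + 1) = q at e
    generalize j % (k + 1) = r at e hr
    subst e
    rcases hr.lt_or_eq with hr' | rfl
    · rw [add_assoc, Nat.mul_add_div (Nat.succ_pos k), Nat.mul_add_mod,
        Nat.div_eq_of_lt (by omega), Nat.mod_eq_of_lt (by omega), add_zero, free_iter hσ]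
      exact hz r hr
    · rw [add_assoc, Nat.mul_add_div (Nat.succ_pos r), Nat.mul_add_mod,
        Nat.div_self (Nat.succ_pos r), Nat.mod_self, Function.iterate_succ_apply, free_iter hσ,
        z0, ← z1]
      exact hz r le_rfl

theorem free_poly [PathConnectedSpace X] {σ : X → X} (hσ : Isometry σ) (h2 : ∀ x, σ (σ x) = x) :
    ∃ k : ℕ, ∃ x : ZMod (2 * (k + 1)) → X, St S.ρ x ∧ Tr σ ((k + 1 : ℕ) : ZMod (2 * (k + 1))) x := by
  obtain ⟨k, y, hy, hd⟩ := free_seq S.pos hσ
  have hp : Function.Periodic y (2 * (k + 1)) := fun j => by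
    rw [two_mul, ← add_assoc, hy, hy, h2]
  have key : ∀ (i : ZMod (2 * (k + 1))) (c : ℕ),
      y (i + (c : ZMod (2 * (k + 1)))).val = y (i.val + c) := by
    intro i c
    have : i + (c : ZMod (2 * (k + 1))) = ((i.val + c : ℕ) : ZMod (2 * (k + 1))) := by
      rw [Nat.cast_add, ZMod.natCast_zmod_val]
    rw [this, ZMod.val_natCast, hp.map_mod_nat]
  refine ⟨k, fun i => y i.val, fun i => ?_, fun i => ?_⟩
  · have := key i 1
    rw [Nat.cast_one] at this
    simp only [this]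
    exact hd _
  · simp only [key, hy]

include S in
theorem cg_free [CompactSpace X] [PathConnectedSpace X] {σ : X → X} (hσ : Isometry σ)
    (h2 : ∀ x, σ (σ x) = x) (hf : ∀ x, σ x ≠ x) : ∃ γ : ℝ → X, CG γ := by
  obtain ⟨k, x₀, hx₀⟩ := free_poly S hσ h2
  have hc : IsClosed {x : ZMod (2 * (k + 1)) → X |
      St S.ρ x ∧ Tr σ ((k + 1 : ℕ) : ZMod (2 * (k + 1))) x} := by
    refine (isClosed_St S.ρ).inter ?_
    have : {x : ZMod (2 * (k + 1)) → X | Tr σ ((k + 1 : ℕ) : ZMod (2 * (k + 1))) x} =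
        ⋂ i, {x | x (i + ((k + 1 : ℕ) : ZMod (2 * (k + 1)))) = σ (x i)} := by
      ext x
      simp only [Tr, mem_iInter]
      rfl
    show IsClosed {x : ZMod (2 * (k + 1)) → X | Tr σ ((k + 1 : ℕ) : ZMod (2 * (k + 1))) x}
    rw [this]
    exact isClosed_iInter fun i =>
      isClosed_eq (continuous_apply _) (hσ.continuous.comp (continuous_apply _))
  obtain ⟨x, ⟨hs, ht⟩, hm⟩ := hc.isCompact.exists_isMinOn ⟨x₀, hx₀⟩ continuous_En.continuousOn
  have h1 : En x ≤ En (bir S x) := hm (a := bir S x) ⟨bir_st S le_rfl hs, bir_tr S hσ hs ht⟩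
  refine ⟨_, cg_of_en S hs (h1.trans (en_bir S hs)) ?_⟩
  by_contra h0
  have h3 := small_of_en (x := x) (e := 0) le_rfl (by rw [zero_pow two_ne_zero]; exact not_lt.1 h0)
    (0 + ((k + 1 : ℕ) : ZMod (2 * (k + 1))))
  rw [ht 0, mul_zero, dist_le_zero] at h3
  exact hf _ h3.symm

end Vale.Agent.P216
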