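import Vale.Agent.P216.SegL

/-! P216 PolA (TASK, helper names start with pola_).
pol_piece: for t < j + 1 the floor is j (Int.floor_eq_iff); for t = j + 1 both sides are x (j + 1) (zero, one).
pol_cont: the closed sets {p | p.2 ∈ Icc j (j + 1)}, j : ℤ, form a locally finite cover; on each use pol_piece and Seg.cont'
(LocallyFinite.continuousOn_iUnion with relative closedness; {x | St ρ x} is closed), or argue at a point (x, t) with the two pieces
j = ⌊t⌋ - 1, ⌊t⌋ (ContinuousWithinAt.union, mem_nhdsWithin).  pol_per: Int.floor_add_natCast, Int.fract_add_natCast, ZMod.natCast_self. -/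

open Set Filter Topology

noncomputable section

namespace Vale.Agent.P216

variable {X : Type} [MetricSpace X] {n : ℕ} (S : Seg X)

theorem pol_piece {x : ZMod n → X} (hx : St S.ρ x) (j : ℤ) {t : ℝ} (ht : t ∈ Icc (j : ℝ) (j + 1)) :
    pol S x t = S.c (x j) (x (j + 1)) (t - j) := by
  rcases ht.2.eq_or_lt with e | e
  · have h1 : ⌊t⌋ = j + 1 := by rw [e, Int.floor_add_one, Int.floor_intCast]
    have h2 : Int.fract t = 0 := by rw [e, Int.fract_add_one, Int.fract_intCast]
    rw [pol, h1, h2, S.zero _ _ (hx _), e, add_sub_cancel_left, S.one _ _ (hx _), Int.cast_add,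
      Int.cast_one]
  · rw [pol, Int.fract, Int.floor_eq_iff.2 ⟨ht.1, e⟩]

theorem pol_int {x : ZMod n → X} (hx : St S.ρ x) (j : ℤ) : pol S x j = x j := by
  rw [pol, Int.floor_intCast, Int.fract_intCast, S.zero _ _ (hx _)]

theorem pol_per (x : ZMod n → X) (t : ℝ) : pol S x (t + n) = pol S x t := by
  rw [pol, pol, Int.floor_add_natCast, Int.fract_add_natCast, Int.cast_add, Int.cast_natCast,
    ZMod.natCast_self, add_zero]

theorem pol_near {x : ZMod n → X} {η : ℝ} (hη : η ≤ S.ρ) (hx : St η x) (t : ℝ) :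
    dist (x (⌊t⌋ : ℤ)) (pol S x t) ≤ η := by
  rw [pol, S.dl ((hx _).trans hη) ⟨Int.fract_nonneg t, (Int.fract_lt_one t).le⟩]
  exact (mul_le_of_le_one_left dist_nonneg (Int.fract_lt_one t).le).trans (hx _)

theorem isClosed_St (η : ℝ) : IsClosed {x : ZMod n → X | St η x} := by
  simp only [St, ofPred_forall]
  exact isClosed_iInter fun i => isClosed_le (by fun_prop) continuous_const

theorem pol_cont [CompactSpace X] : ContinuousOn (fun p : (ZMod n → X) × ℝ => pol S p.1 p.2)
    ({x | St S.ρ x} ×ˢ univ) := by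
  have lf : LocallyFinite fun j : ℤ => Icc (j : ℝ) (j + 1) :=
    locallyFinite_Icc_of_tendsto tendsto_intCast_atTop_atTop
      (tendsto_atBot_add_const_right _ _ (tendsto_intCast_atBot_iff.2 tendsto_id))
  have lf' : LocallyFinite fun j : ℤ => {x : ZMod n → X | St S.ρ x} ×ˢ Icc (j : ℝ) (j + 1) :=
    (lf.preimage_continuous continuous_snd).subset fun j p hp => hp.2
  refine (lf'.continuousOn_iUnion (fun j => (isClosed_St _).prod isClosed_Icc) fun j => ?_).mono
    fun p hp => mem_iUnion.2 ⟨⌊p.2⌋, hp.1, Int.floor_le _, (Int.lt_floor_add_one _).le⟩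
  refine (S.cont' (u := fun p => p.1 j) (v := fun p => p.1 (j + 1)) (t := fun p => p.2 - j)
    (by fun_prop) (by fun_prop) (by fun_prop) fun p hp =>
      ⟨hp.1 _, sub_nonneg.2 hp.2.1, sub_le_iff_le_add'.2 hp.2.2⟩).congr fun p hp => ?_
  exact pol_piece S hp.1 j hp.2

end Vale.Agent.P216
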