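import Vale.Agent.P216.PolA

/-! P216 PolB (TASK, helper names start with polb_).
pol_rf: with j = ⌊t⌋, -t ∈ Icc (-j-1) (-j); pol_piece twice, Seg.map, Seg.rev (push_cast, x (-j-1) = σ (x (j+1))).
pol_lg: δ = 1/2; wlog s ≤ t ≤ s + 1/2.  Either s, t lie in one piece Icc j (j+1) (dist_eq), or s ≤ j ≤ t for an integer j with
j - 1/2 ≤ s, t ≤ j + 1/2: upper bound by the triangle inequality through x j; lower bound from
a = dist (half (j-1)) (half j) ≤ dist (half (j-1)) (pol s) + dist (pol s) (pol t) + dist (pol t) (half j) and dist_eq. -/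

open Set Filter Topology

noncomputable section

namespace Vale.Agent.P216

variable {X : Type} [MetricSpace X] {n : ℕ} (S : Seg X)

theorem pol_rf {σ : X → X} (hσ : Isometry σ) {x : ZMod n → X} (hx : St S.ρ x) (h : Rf σ x) (t : ℝ) :
    pol S x (-t) = σ (pol S x t) := by
  have f1 := Int.floor_le t
  have f2 := Int.lt_floor_add_one t
  generalize ⌊t⌋ = j at f1 f2
  have ht : t - j ∈ Icc (0 : ℝ) 1 := ⟨by linarith, by linarith⟩
  have e0 : (((-(j + 1) : ℤ) : ZMod n)) = -((j : ZMod n) + 1) := by push_cast; ring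
  have e1 : -((j : ZMod n) + 1) + 1 = -(j : ZMod n) := by ring
  have e2 : -t - ((-(j + 1) : ℤ) : ℝ) = 1 - (t - j) := by push_cast; ring
  have h0 := hx (-((j : ZMod n) + 1))
  rw [e1] at h0
  rw [pol_piece S hx j ⟨f1, f2.le⟩, S.map hσ (hx j) ht, ← h, ← h,
    pol_piece S hx (-(j + 1)) (t := -t) ⟨by push_cast; linarith, by push_cast; linarith⟩, e0, e1, e2,
    S.rev h0 ht]

theorem polb_same {x : ZMod n → X} {a : ℝ} (ha : a ≤ S.ρ) (h1 : ∀ i, dist (x i) (x (i + 1)) = a)
    (j : ℤ) {s t : ℝ} (hs : s ∈ Icc (j : ℝ) (j + 1)) (ht : t ∈ Icc (j : ℝ) (j + 1)) (hst : s ≤ t) :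
    dist (pol S x s) (pol S x t) = a * (t - s) := by
  have hx : St S.ρ x := fun i => (h1 i).trans_le ha
  rw [pol_piece S hx j hs, pol_piece S hx j ht, S.dist_eq _ _ (hx j) _
    ⟨by linarith [hs.1], by linarith [hs.2]⟩ _ ⟨by linarith [ht.1], by linarith [ht.2]⟩, h1,
    abs_of_nonpos (by linarith)]
  ring

theorem polb_half {x : ZMod n → X} (hx : St S.ρ x) (j : ℤ) :
    pol S x (j + 1 / 2) = half S x j := by
  rw [pol_piece S hx j ⟨by linarith, by linarith⟩, add_sub_cancel_left]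
  rfl

theorem pol_lg {x : ZMod n → X} {a : ℝ} (ha : a ≤ S.ρ) (h1 : ∀ i, dist (x i) (x (i + 1)) = a)
    (h2 : ∀ i, dist (half S x i) (half S x (i + 1)) = a) : LG (pol S x) a := by
  have hx : St S.ρ x := fun i => (h1 i).trans_le ha
  have key : ∀ s t : ℝ, s ≤ t → t - s ≤ 1 / 2 → dist (pol S x s) (pol S x t) = a * (t - s) := by
    intro s t hst hd
    have f1 := Int.floor_le t
    have f2 := Int.lt_floor_add_one t
    generalize ⌊t⌋ = j at f1 f2
    by_cases hj : (j : ℝ) ≤ s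
    · exact polb_same S ha h1 j ⟨hj, by linarith⟩ ⟨f1, f2.le⟩ hst
    have hj' := not_le.1 hj
    have c1 : (((j - 1 : ℤ) : ℝ)) = j - 1 := by push_cast; ring
    have m1 : s ∈ Icc ((j - 1 : ℤ) : ℝ) ((j - 1 : ℤ) + 1) := ⟨by linarith, by linarith⟩
    have d1 := polb_same S ha h1 (j - 1) (t := j) m1 ⟨by linarith, by linarith⟩ hj'.le
    have d2 := polb_same S ha h1 j (s := j) ⟨le_rfl, by linarith⟩ ⟨f1, f2.le⟩ f1
    have d3 := polb_same S ha h1 (j - 1) (s := (j - 1 : ℤ) + 1 / 2) ⟨by linarith, by linarith⟩ m1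
      (by linarith)
    have d4 := polb_same S ha h1 j (t := j + 1 / 2) ⟨f1, f2.le⟩ ⟨by linarith, by linarith⟩
      (by linarith)
    have d5 := h2 ((j - 1 : ℤ) : ZMod n)
    have c2 : (((j - 1 : ℤ) : ZMod n)) + 1 = j := by push_cast; ring
    rw [c2, ← polb_half S hx, ← polb_half S hx] at d5
    have d6 := dist_triangle (pol S x s) (pol S x j) (pol S x t)
    have d7 := dist_triangle4 (pol S x ((j - 1 : ℤ) + 1 / 2)) (pol S x s) (pol S x t)
      (pol S x (j + 1 / 2))
    rw [d3, d4, d5, c1] at d7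
    rw [d1, d2] at d6
    apply le_antisymm <;> linarith
  refine ⟨1 / 2, by norm_num, fun s t hd => ?_⟩
  rcases le_total s t with h | h
  · rw [abs_of_nonpos (by linarith)] at hd ⊢
    rw [key s t h (by linarith), neg_sub]
  · rw [abs_of_nonneg (by linarith)] at hd ⊢
    rw [dist_comm, key t s h hd]

end Vale.Agent.P216
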