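import Vale.Agent.P216.Ctr

/-! P216 SecA (TASK, helper names start with seca_).
sec_loc: β a path from p to x0; a (y, r) = if r ≤ 1/2 then β.extend (2 r) else S.c x0 y (cl (2 r - 1)) on closedBall x0 ρ
(ContinuousOn.if or restrict to the subtype and Continuous.if_le; or avoid the if by two closed pieces).
sec_pair: K = the subtype W (isCompact_iff_compactSpace), z (k, u) = if u ≤ 1/2 then a (k, 2 u) else b (k, 2 - 2 u); contract gives Z.
The boundary point e l = (min 1 (min (3 l) (3 - 3 l)), cl (3 l - 1)) for l = cl of the parameter runs from (0, 0) up, across and down to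
(0, 1), always with first coordinate 1 or second coordinate 0 or 1, so Z there is fixed by σ.
H (l, x, r) = Z ((1 - r') * (e l).1, x, (1 - r') * (e l).2 + r' / 2) with r' = cl r, extended by x outside W (dite, or Function.extend). -/

open Set Filter Topology

noncomputable section

namespace Vale.Agent.P216

variable {X : Type} [MetricSpace X] {n : ℕ} (S : Seg X)

theorem sec_loc [CompactSpace X] [PathConnectedSpace X] {σ : X → X} {p : X} (hp : σ p = p) (x0 : X) :
    ∃ a, Sec σ (Metric.closedBall x0 S.ρ) a := by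
  obtain ⟨β⟩ := PathConnectedSpace.joined p x0
  refine ⟨fun q => if q.2 ≤ 1 / 2 then β.extend (2 * q.2) else S.c x0 q.1 (cl (2 * q.2 - 1)),
    ?_, fun x hx => ⟨?_, ?_⟩⟩
  · have h1 : ContinuousOn (fun q : X × ℝ => S.c x0 q.1 (cl (2 * q.2 - 1)))
        (Metric.closedBall x0 S.ρ ×ˢ univ) :=
      S.cont' continuousOn_const continuousOn_fst
        (continuous_cl.comp (by fun_prop)).continuousOn
        fun y hy => ⟨Metric.mem_closedBall'.1 hy.1, cl_mem _⟩
    rw [continuousOn_iff_continuous_domRestrict] at h1 ⊢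
    refine Continuous.if_le (β.continuous_extend.comp (by fun_prop)) h1 (by fun_prop)
      continuous_const fun q hq => ?_
    have h2 : 2 * q.1.2 = 1 := by linarith
    show β.extend (2 * q.1.2) = S.c x0 q.1.1 (cl (2 * q.1.2 - 1))
    rw [h2, sub_self, cl_zero, β.extend_one, S.zero _ _ (Metric.mem_closedBall'.1 q.2.1)]
  · have h2 : (2 : ℝ) * 1 - 1 = 1 := by norm_num
    simp only [if_neg (show ¬ (1 : ℝ) ≤ 1 / 2 by norm_num), h2, cl_one]
    exact S.one _ _ (Metric.mem_closedBall'.1 hx)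
  · simp only [if_pos (show (0 : ℝ) ≤ 1 / 2 by norm_num), mul_zero, β.extend_zero, hp]

include S in
theorem sec_pair [CompactSpace X] {σ : X → X} (hσ : Isometry σ) (h2 : ∀ x, σ (σ x) = x)
    (hno : NoRef σ) {W : Set X} (hW : IsClosed W) {a b : X × ℝ → X} (ha : Sec σ W a)
    (hb : Sec σ W b) : ∃ H : ℝ × X × ℝ → X, ContinuousOn H (univ ×ˢ W ×ˢ univ) ∧
      (∀ l, ∀ x ∈ W, H (l, x, 1) = x ∧ σ (H (l, x, 0)) = H (l, x, 0)) ∧
      ∀ x ∈ W, ∀ r, H (0, x, r) = a (x, cl r) ∧ H (1, x, r) = b (x, cl r) := by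
  classical
  have : CompactSpace W := isCompact_iff_compactSpace.1 hW.isCompact
  have hc : ∀ {f : X × ℝ → X} {g : ℝ → ℝ}, Sec σ W f → Continuous g →
      Continuous fun q : W × ℝ => f (q.1, g q.2) := fun hf hg =>
    hf.1.comp_continuous (by fun_prop) fun q => ⟨q.1.2, mem_univ _⟩
  obtain ⟨z, hz, z1, z2⟩ : ∃ z : W × ℝ → X, Continuous z ∧
      (∀ k u, u ≤ 1 / 2 → z (k, u) = a (k, 2 * u)) ∧
      ∀ k u, 1 / 2 ≤ u → z (k, u) = b (k, 2 - 2 * u) := by
    have h3 : ∀ (k : W) (u : ℝ), u = 1 / 2 → a (k, 2 * u) = b (k, 2 - 2 * u) := fun k u hu => by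
      rw [show 2 * u = 1 by linarith, show (2 : ℝ) - 1 = 1 by norm_num, (ha.2 k k.2).1,
        (hb.2 k k.2).1]
    refine ⟨fun q => if q.2 ≤ 1 / 2 then a (q.1, 2 * q.2) else b (q.1, 2 - 2 * q.2),
      Continuous.if_le (hc ha (by fun_prop)) (hc (g := fun u => 2 - 2 * u) hb (by fun_prop))
        continuous_snd continuous_const fun q hq => h3 _ _ hq,
      fun k u hu => if_pos hu, fun k u hu => ?_⟩
    by_cases h : u ≤ 1 / 2
    · exact (if_pos h).trans (h3 _ _ (le_antisymm h hu))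
    · exact if_neg h
  obtain ⟨w, hw, Z, hZ, Z0, Z1, ZE⟩ := contract S hσ h2 hno hz fun k => by
    rw [z1 k 0 (by norm_num), z2 k 1 (by norm_num), mul_zero, mul_one, sub_self]
    exact ⟨(ha.2 k k.2).2, (hb.2 k k.2).2⟩
  have c0 : ∀ t, t ≤ 0 → cl t = 0 := fun t ht => max_eq_left ((min_le_left _ _).trans ht)
  have c1 : ∀ t, 1 ≤ t → cl t = 1 := fun t ht => by
    rw [cl, min_eq_right ht, max_eq_right zero_le_one]
  refine ⟨fun q => if h : q.2.1 ∈ W then Z ((1 - cl q.2.2) * min 1 (min (3 * q.1) (3 - 3 * q.1)),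
    ⟨q.2.1, h⟩, (1 - cl q.2.2) * cl (3 * q.1 - 1) + cl q.2.2 / 2) else q.2.1, ?_,
    fun l x hx => ⟨?_, ?_⟩, fun x hx r => ⟨?_, ?_⟩⟩
  · rw [continuousOn_iff_continuous_domRestrict]
    have h3 : Continuous fun q : ((univ : Set ℝ) ×ˢ W ×ˢ (univ : Set ℝ) : Set (ℝ × X × ℝ)) =>
        Z ((1 - cl q.1.2.2) * min 1 (min (3 * q.1.1) (3 - 3 * q.1.1)), ⟨q.1.2.1, q.2.2.1⟩,
          (1 - cl q.1.2.2) * cl (3 * q.1.1 - 1) + cl q.1.2.2 / 2) := by
      have := continuous_cl
      refine hZ.comp (Continuous.prodMk (by fun_prop)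
        (Continuous.prodMk (Continuous.subtype_mk (by fun_prop) _) (by fun_prop)))
    refine h3.congr fun q => ?_
    simp only [domRestrict_apply, dif_pos q.2.2.1]
  · simp only [dif_pos hx, cl_one, sub_self, zero_mul, zero_add, Z0]
    rw [cl_of_mem ⟨by norm_num, by norm_num⟩, z1 _ _ le_rfl, show 2 * (1 / 2 : ℝ) = 1 by norm_num]
    exact (ha.2 x hx).1
  · simp only [dif_pos hx, cl_zero, sub_zero, one_mul, zero_div, add_zero]
    rcases le_total (3 * l) 1 with h | h
    · rw [c0 _ (by linarith)]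
      exact (ZE _ _).1
    rcases le_total (3 * l) 2 with h' | h'
    · rw [min_eq_left (le_min h (by linarith)), Z1]
      exact hw _
    · rw [c1 _ (by linarith)]
      exact (ZE _ _).2
  · have h3 := cl_mem r
    have h4 : min 1 (min (3 * 0) (3 - 3 * 0)) = (0 : ℝ) := by norm_num
    simp only [dif_pos hx]
    rw [h4, c0 (3 * 0 - 1) (by norm_num), mul_zero, zero_add, Z0]
    dsimp only
    rw [cl_of_mem (t := cl r / 2) ⟨by linarith [h3.1], by linarith [h3.2]⟩,
      z1 _ _ (by linarith [h3.2]), mul_div_cancel₀ _ two_ne_zero]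
  · have h3 := cl_mem r
    have h4 : min 1 (min (3 * 1) (3 - 3 * 1)) = (0 : ℝ) := by norm_num
    simp only [dif_pos hx]
    rw [h4, c1 (3 * 1 - 1) (by norm_num), mul_zero, Z0]
    dsimp only
    rw [cl_of_mem (t := (1 - cl r) * 1 + cl r / 2) ⟨by linarith [h3.2], by linarith [h3.1]⟩,
      z2 _ _ (by linarith [h3.2]), show 2 - 2 * ((1 - cl r) * 1 + cl r / 2) = cl r by ring]

end Vale.Agent.P216
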