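import Vale.Agent.P216.SecA

/-! P216 SecB (TASK, helper names start with secb_).
sec_union: A = W minus interior W2 and A' = W minus interior W1 are disjoint closed sets, exists_continuous_zero_one_of_isClosed gives f = 0
on A, 1 on A'.  H from sec_pair on W1 ∩ W2.  a (x, r) = if x ∈ W1 ∩ W2 then H (f x, x, r) else if x ∈ W1 then a1 (x, cl r) else a2 (x, cl r).
It equals a1 (x, cl r) on A, a2 (x, cl r) on A'; W ⊆ (W1 ∩ W2) ∪ A ∪ A' (ContinuousOn.union_of_isClosed, .congr, .mono).
compress: isCompact_univ.induction_on with the property ∃ W closed, closure T ⊆ interior W ∧ ∃ a, Sec σ W a; for the union use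
normal_exists_closure_subset (or IsCompact.exists_isClosed.. exists_compact_between); locally T = ball x0 (ρ / 2), sec_loc. -/

open Set Filter Topology

noncomputable section

namespace Vale.Agent.P216

variable {X : Type} [MetricSpace X] {n : ℕ} (S : Seg X)

theorem secb_mono {σ : X → X} {W W' : Set X} {a : X × ℝ → X} (h : Sec σ W a) (hs : W' ⊆ W) :
    Sec σ W' a := ⟨h.1.mono (prod_mono hs subset_rfl), fun x hx => h.2 x (hs hx)⟩

theorem secb_cl {σ : X → X} {W : Set X} {a : X × ℝ → X} (h : Sec σ W a) :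
    Sec σ W fun p => a (p.1, cl p.2) := by
  refine ⟨h.1.comp (continuous_fst.prodMk (continuous_cl.comp continuous_snd)).continuousOn
    fun p hp => ⟨hp.1, mem_univ _⟩, fun x hx => ?_⟩
  simp only [cl_zero, cl_one]
  exact h.2 x hx

theorem secb_congr {σ : X → X} {W : Set X} {a b : X × ℝ → X} (h : Sec σ W a)
    (he : ∀ x ∈ W, ∀ r, b (x, r) = a (x, r)) : Sec σ W b := by
  refine ⟨h.1.congr fun p hp => he p.1 hp.1 p.2, fun x hx => ?_⟩
  rw [he x hx, he x hx]
  exact h.2 x hx

theorem secb_union {σ : X → X} {W W' : Set X} {a : X × ℝ → X} (h : Sec σ W a) (h' : Sec σ W' a)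
    (hW : IsClosed W) (hW' : IsClosed W') : Sec σ (W ∪ W') a := by
  refine ⟨?_, fun x hx => hx.elim (h.2 x) (h'.2 x)⟩
  rw [union_prod]
  exact h.1.union_of_isClosed h'.1 (hW.prod isClosed_univ) (hW'.prod isClosed_univ)

include S in
theorem sec_union [CompactSpace X] {σ : X → X} (hσ : Isometry σ) (h2 : ∀ x, σ (σ x) = x)
    (hno : NoRef σ) {W W1 W2 : Set X} (hW : IsClosed W) (h1 : IsClosed W1) (h2' : IsClosed W2)
    (hs : W ⊆ interior W1 ∪ interior W2) {a1 a2 : X × ℝ → X} (ha : Sec σ W1 a1) (hb : Sec σ W2 a2) :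
    ∃ a, Sec σ W a := by
  classical
  have c1 : IsClosed (W \ interior W2) := hW.sdiff isOpen_interior
  have c2 : IsClosed (W \ interior W1) := hW.sdiff isOpen_interior
  have s1 : W \ interior W2 ⊆ W1 := fun x hx => interior_subset ((hs hx.1).resolve_right hx.2)
  have s2 : W \ interior W1 ⊆ W2 := fun x hx => interior_subset ((hs hx.1).resolve_left hx.2)
  obtain ⟨f, f0, f1, -⟩ := exists_continuous_zero_one_of_isClosed c1 c2
    (disjoint_left.2 fun x hx hx' => (hs hx.1).elim hx'.2 hx.2)
  obtain ⟨H, hc, he, hv⟩ := sec_pair S hσ h2 hno (h1.inter h2') (secb_mono ha inter_subset_left)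
    (secb_mono hb inter_subset_right)
  have hH : Sec σ (W1 ∩ W2) fun p => H (f p.1, p) :=
    ⟨hc.comp ((f.continuous.comp continuous_fst).prodMk continuous_id).continuousOn
      fun p hp => ⟨mem_univ _, hp⟩, fun x hx => he (f x) x hx⟩
  refine ⟨fun p => if p.1 ∈ W1 ∩ W2 then H (f p.1, p) else if p.1 ∈ W1 then a1 (p.1, cl p.2)
    else a2 (p.1, cl p.2), secb_mono (secb_union (secb_union (secb_congr hH fun x hx r => if_pos hx)
      (secb_congr (secb_mono (secb_cl ha) s1) fun x hx r => ?_) (h1.inter h2') c1)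
      (secb_congr (secb_mono (secb_cl hb) s2) fun x hx r => ?_) ((h1.inter h2').union c1) c2)
      fun x hx => ?_⟩
  · by_cases h : x ∈ W1 ∩ W2
    · refine (if_pos h).trans ?_
      rw [show f (x, r).1 = 0 from f0 hx]
      exact (hv x h r).1
    · exact (if_neg h).trans (if_pos (s1 hx))
  · by_cases h : x ∈ W1 ∩ W2
    · refine (if_pos h).trans ?_
      rw [show f (x, r).1 = 1 from f1 hx]
      exact (hv x h r).2
    · exact (if_neg h).trans (if_neg fun h' => h ⟨h', s2 hx⟩)
  · by_cases i1 : x ∈ interior W1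
    · by_cases i2 : x ∈ interior W2
      · exact Or.inl (Or.inl ⟨interior_subset i1, interior_subset i2⟩)
      · exact Or.inl (Or.inr ⟨hx, i2⟩)
    · exact Or.inr ⟨hx, i1⟩

include S in
theorem compress [CompactSpace X] [PathConnectedSpace X] {σ : X → X} (hσ : Isometry σ)
    (h2 : ∀ x, σ (σ x) = x) (hno : NoRef σ) {p : X} (hp : σ p = p) : ∃ a, Sec σ univ a := by
  have h : ∃ W : Set X, IsClosed W ∧ closure univ ⊆ interior W ∧ ∃ a, Sec σ W a := by
    refine isCompact_univ.induction_on
      (p := fun T => ∃ W : Set X, IsClosed W ∧ closure T ⊆ interior W ∧ ∃ a, Sec σ W a)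
      ⟨∅, isClosed_empty, by simp, fun q => q.1, continuous_fst.continuousOn, fun x hx => hx.elim⟩
      (fun s t hst ⟨W, h1, h3, h4⟩ => ⟨W, h1, (closure_mono hst).trans h3, h4⟩)
      (fun s t ⟨W1, a1, a2, a, a3⟩ ⟨W2, b1, b2, b, b3⟩ => ?_) fun x _ => ?_
    · obtain ⟨u, u1, u2, u3⟩ := normal_exists_closure_subset (isClosed_closure (s := s ∪ t))
        (isOpen_interior.union isOpen_interior) (by
          rw [closure_union]
          exact union_subset_union a2 b2)
      exact ⟨closure u, isClosed_closure, u2.trans (interior_maximal subset_closure u1),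
        sec_union S hσ h2 hno isClosed_closure a1 b1 u3 a3 b3⟩
    · refine ⟨Metric.closedBall x (S.ρ / 2),
        mem_nhdsWithin_of_mem_nhds (Metric.closedBall_mem_nhds x (half_pos S.pos)),
        Metric.closedBall x S.ρ, Metric.isClosed_closedBall, ?_, sec_loc S hp x⟩
      rw [Metric.isClosed_closedBall.closure_eq]
      exact (Metric.closedBall_subset_ball (half_lt_self S.pos)).trans
        Metric.ball_subset_interior_closedBall
  obtain ⟨W, -, h1, a, h3⟩ := h
  exact ⟨a, secb_mono h3 (subset_closure.trans (h1.trans interior_subset))⟩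

include S in
theorem cg_ref [CompactSpace X] [PathConnectedSpace X] (hE : Ess X) {σ : X → X} (hσ : Isometry σ)
    (h2 : ∀ x, σ (σ x) = x) {p q : X} (hp : σ p = p) (hq : σ q ≠ q) :
    ∃ γ : ℝ → X, CG γ ∧ ∀ t, γ (-t) = σ (γ t) := by
  by_contra hno
  obtain ⟨a, h1, h3⟩ := compress S hσ h2 hno hp
  rw [univ_prod_univ, continuousOn_univ] at h1
  obtain ⟨x, hx⟩ := hE a h1 (fun x => (h3 x (mem_univ x)).1) q
  exact hq (hx ▸ (h3 x (mem_univ x)).2)

end Vale.Agent.P216
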