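import Vale.Agent.P216.Basic

/-! P216 SegL (TASK, helper names start with segl_).
dl, dr: dist_eq with zero, one.  rev, map, self: uniq.
cont: closed graph into a compact space. For a point p0 of the set and an ultrafilter below 𝓝[set] p0 the image converges to some z
(CompactSpace, Ultrafilter.le_nhds_lim or isCompact_univ.ultrafilter_le_nhds), dl and dr pass to the limit (tendsto_nhds_unique),
uniq gives z = c x y t; conclude with tendsto_iff_ultrafilter (or IsCompact.tendsto_nhds_of_unique_mapClusterPt). -/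

open Set Filter Topology

noncomputable section

namespace Vale.Agent.P216

variable {X : Type} [MetricSpace X] {n : ℕ} (S : Seg X)

theorem Seg.dl {x y : X} (h : dist x y ≤ S.ρ) {t : ℝ} (ht : t ∈ Icc (0 : ℝ) 1) :
    dist x (S.c x y t) = t * dist x y := by
  have e := S.dist_eq x y h 0 ⟨le_rfl, zero_le_one⟩ t ht
  rwa [S.zero x y h, zero_sub, abs_neg, abs_of_nonneg ht.1] at e

theorem Seg.dr {x y : X} (h : dist x y ≤ S.ρ) {t : ℝ} (ht : t ∈ Icc (0 : ℝ) 1) :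
    dist (S.c x y t) y = (1 - t) * dist x y := by
  have e := S.dist_eq x y h t ht 1 ⟨zero_le_one, le_rfl⟩
  rwa [S.one x y h, abs_sub_comm, abs_of_nonneg (sub_nonneg.2 ht.2)] at e

theorem Seg.rev {x y : X} (h : dist x y ≤ S.ρ) {t : ℝ} (ht : t ∈ Icc (0 : ℝ) 1) :
    S.c x y (1 - t) = S.c y x t := by
  have ht' : 1 - t ∈ Icc (0 : ℝ) 1 := ⟨sub_nonneg.2 ht.2, sub_le_self _ ht.1⟩
  refine S.uniq y x (by rwa [dist_comm]) t ht _ ?_ ?_
  · rw [dist_comm, S.dr h ht', sub_sub_cancel, dist_comm]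
  · rw [dist_comm, S.dl h ht', dist_comm]

theorem Seg.map {σ : X → X} (hσ : Isometry σ) {x y : X} (h : dist x y ≤ S.ρ) {t : ℝ}
    (ht : t ∈ Icc (0 : ℝ) 1) : σ (S.c x y t) = S.c (σ x) (σ y) t := by
  refine S.uniq _ _ (by rwa [hσ.dist_eq]) t ht _ ?_ ?_
  · rw [hσ.dist_eq, hσ.dist_eq, S.dl h ht]
  · rw [hσ.dist_eq, hσ.dist_eq, S.dr h ht]

theorem Seg.cont [CompactSpace X] : ContinuousOn (fun p : X × X × ℝ => S.c p.1 p.2.1 p.2.2)
    {p | dist p.1 p.2.1 ≤ S.ρ ∧ p.2.2 ∈ Icc (0 : ℝ) 1} := by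
  intro p0 hp0
  refine tendsto_iff_ultrafilter _ _ _ |>.2 fun g hg => ?_
  obtain ⟨z, -, hz⟩ := isCompact_univ.ultrafilter_le_nhds
    (g.map fun p : X × X × ℝ => S.c p.1 p.2.1 p.2.2) (by simp)
  have hz' : Tendsto (fun p : X × X × ℝ => S.c p.1 p.2.1 p.2.2) g (𝓝 z) := hz
  have hid : Tendsto (fun p : X × X × ℝ => p) g (𝓝 p0) := hg.trans nhdsWithin_le_nhds
  have h1 : Tendsto (fun p : X × X × ℝ => p.1) g (𝓝 p0.1) := (continuous_fst.tendsto _).comp hid
  have h2 : Tendsto (fun p : X × X × ℝ => p.2.1) g (𝓝 p0.2.1) :=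
    (continuous_snd.fst.tendsto _).comp hid
  have h3 : Tendsto (fun p : X × X × ℝ => p.2.2) g (𝓝 p0.2.2) :=
    (continuous_snd.snd.tendsto _).comp hid
  have hm : ∀ᶠ p : X × X × ℝ in g, dist p.1 p.2.1 ≤ S.ρ ∧ p.2.2 ∈ Icc (0 : ℝ) 1 :=
    hg self_mem_nhdsWithin
  have e : z = S.c p0.1 p0.2.1 p0.2.2 := by
    refine S.uniq _ _ hp0.1 _ hp0.2 z ?_ ?_
    · exact le_of_tendsto_of_tendsto (h1.dist hz') (h3.mul (h1.dist h2))
        (hm.mono fun p hp => (S.dl hp.1 hp.2).le)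
    · exact le_of_tendsto_of_tendsto (hz'.dist h2) ((tendsto_const_nhds.sub h3).mul (h1.dist h2))
        (hm.mono fun p hp => (S.dr hp.1 hp.2).le)
  rw [e] at hz'
  exact hz'

/-- The form used everywhere. -/
theorem Seg.cont' [CompactSpace X] {Y : Type} [TopologicalSpace Y] {A : Set Y} {u v : Y → X}
    {t : Y → ℝ} (hu : ContinuousOn u A) (hv : ContinuousOn v A) (ht : ContinuousOn t A)
    (h : ∀ y ∈ A, dist (u y) (v y) ≤ S.ρ ∧ t y ∈ Icc (0 : ℝ) 1) :
    ContinuousOn (fun y => S.c (u y) (v y) (t y)) A :=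
  S.cont.comp (hu.prodMk (hv.prodMk ht)) h

end Vale.Agent.P216
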