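import Vale.Agent.P216.Basic

/-! P216 Tra (helper names start with tra_).
transl: γ is continuous (lg_cont).  The closed sets A j = {t | τ (γ t) ∈ γ '' Icc (j δ) ((j + 1) δ)}, j : ℤ, cover ℝ, so one has an
interior point t0 (nonempty_interior_of_iUnion_of_closed).  On a small interval J around t0 choose φ t in the piece with τ (γ t) = γ (φ t);
then |φ s - φ t| = |s - t| on J, so (fix one t1 ≠ t0 in J, sign of φ t1 - φ t0) φ t = t + b on J or φ t = -t + b on J.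
Both τ ∘ γ and t ↦ γ (± t + b) are LG with speed a; NB finishes.
not_even: take u small positive at the centre b / 2.  per_half: the periods form an additive subgroup of ℝ which is not dense
(AddSubgroup.dense_or_cyclic; a nonzero period has modulus > δ), so it is zmultiples L; 2 b1 = m1 L, 2 b2 = m2 L and one of m1, m2,
m1 + m2 is even. -/

open Set Filter Topology

noncomputable section

namespace Vale.Agent.P216

variable {X : Type} [MetricSpace X]

theorem lg_cont {γ : ℝ → X} {a : ℝ} (h : LG γ a) : Continuous γ := by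
  obtain ⟨δ, h0, h⟩ := h
  refine continuous_iff_continuousAt.2 fun t => tendsto_iff_dist_tendsto_zero.2 ?_
  have h1 : Tendsto (fun s : ℝ => a * |s - t|) (𝓝 t) (𝓝 0) := by
    have : Continuous fun s : ℝ => a * |s - t| := by fun_prop
    simpa using this.tendsto t
  refine h1.congr' ?_
  filter_upwards [Metric.closedBall_mem_nhds t h0] with s hs
  exact (h s t hs).symm

theorem transl (hNB : NB X) {γ : ℝ → X} (hγ : CG γ) {τ : X → X} (hτ : Isometry τ)
    (h : ∀ t, τ (γ t) ∈ range γ) :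
    ∃ b, (∀ t, τ (γ t) = γ (t + b)) ∨ ∀ t, τ (γ t) = γ (-t + b) := by
  obtain ⟨⟨a, a0, hl⟩, -⟩ := hγ
  have hc := lg_cont hl
  obtain ⟨δ, h0, hδ⟩ := hl
  obtain ⟨j, t0, ht0⟩ := nonempty_interior_of_iUnion_of_closed
    (f := fun j : ℤ => (fun t => τ (γ t)) ⁻¹' (γ '' Icc (j * δ) ((j + 1) * δ)))
    (fun j => (isCompact_Icc.image hc).isClosed.preimage (hτ.continuous.comp hc))
    (eq_univ_of_forall fun t => by
      obtain ⟨s, hs⟩ := h t
      exact mem_iUnion.2 ⟨⌊s / δ⌋, s, ⟨(le_div_iff₀ h0).1 (Int.floor_le _),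
        ((div_lt_iff₀ h0).1 (Int.lt_floor_add_one _)).le⟩, hs⟩)
  obtain ⟨ε, ε0, hε⟩ := Metric.mem_nhds_iff.1 (mem_interior_iff_mem_nhds.1 ht0)
  have h1 : ∀ t, ∃ s, t ∈ Metric.ball t0 ε → s ∈ Icc (j * δ) ((j + 1) * δ) ∧ γ s = τ (γ t) :=
    fun t => by
      by_cases ht : t ∈ Metric.ball t0 ε
      · obtain ⟨s, hs⟩ := hε ht
        exact ⟨s, fun _ => hs⟩
      · exact ⟨0, fun h' => absurd h' ht⟩
  choose φ hφ using h1
  obtain ⟨r, r0, r1, r2⟩ : ∃ r > 0, 2 * r ≤ ε ∧ 4 * r ≤ δ :=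
    ⟨min (ε / 2) (δ / 4), by positivity, by linarith [min_le_left (ε / 2) (δ / 4)],
      by linarith [min_le_right (ε / 2) (δ / 4)]⟩
  have h2 : ∀ s ∈ Metric.ball t0 (2 * r), ∀ t ∈ Metric.ball t0 (2 * r),
      (φ s - φ t) ^ 2 = (s - t) ^ 2 := by
    intro s hs t ht
    obtain ⟨p1, p2⟩ := hφ s (Metric.ball_subset_ball r1 hs)
    obtain ⟨p3, p4⟩ := hφ t (Metric.ball_subset_ball r1 ht)
    rw [Metric.mem_ball, Real.dist_eq, abs_lt] at hs ht
    have e1 := hδ (φ s) (φ t) (abs_le.2 ⟨by linarith [p1.1, p3.2], by linarith [p1.2, p3.1]⟩)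
    rw [p2, p4, hτ.dist_eq, hδ s t (abs_le.2 ⟨by linarith, by linarith⟩)] at e1
    exact sq_eq_sq_iff_abs_eq_abs _ _ |>.2 (mul_left_cancel₀ a0.ne' e1).symm
  have m0 : t0 ∈ Metric.ball t0 (2 * r) := Metric.mem_ball_self (by linarith)
  have m1 : t0 + r ∈ Metric.ball t0 (2 * r) := by
    rw [Metric.mem_ball, Real.dist_eq, add_sub_cancel_left, abs_of_pos r0]
    linarith
  have hL : LG (fun t => τ (γ t)) a := ⟨δ, h0, fun s t hst => by rw [hτ.dist_eq, hδ s t hst]⟩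
  have h3 := h2 _ m1 _ m0
  rw [add_sub_cancel_left, sq_eq_sq_iff_eq_or_eq_neg] at h3
  rcases h3 with h3 | h3
  · refine ⟨φ t0 - t0, Or.inl (congrFun (hNB _ (fun t => γ (t + (φ t0 - t0))) a hL
      ⟨δ, h0, fun s t hst => ?_⟩ t0 ?_))⟩
    · rw [hδ _ _ (by rwa [add_sub_add_right_eq_sub]), add_sub_add_right_eq_sub]
    · filter_upwards [Metric.ball_mem_nhds t0 (by linarith : 0 < 2 * r)] with t ht
      rw [← (hφ t (Metric.ball_subset_ball r1 ht)).2]
      refine congrArg γ (mul_left_cancel₀ r0.ne' ?_)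
      have e1 : φ (t0 + r) = φ t0 + r := by linarith
      have e2 := h2 _ ht _ m1
      rw [e1] at e2
      linear_combination (h2 _ ht _ m0 - e2) / 2
  · refine ⟨φ t0 + t0, Or.inr (congrFun (hNB _ (fun t => γ (-t + (φ t0 + t0))) a hL
      ⟨δ, h0, fun s t hst => ?_⟩ t0 ?_))⟩
    · have e1 : |-s + (φ t0 + t0) - (-t + (φ t0 + t0))| = |s - t| := by
        rw [add_sub_add_right_eq_sub, ← neg_sub', abs_neg]
      rw [hδ _ _ (e1.trans_le hst), e1]
    · filter_upwards [Metric.ball_mem_nhds t0 (by linarith : 0 < 2 * r)] with t ht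
      rw [← (hφ t (Metric.ball_subset_ball r1 ht)).2]
      refine congrArg γ (mul_left_cancel₀ r0.ne' ?_)
      have e1 : φ (t0 + r) = φ t0 - r := by linarith
      have e2 := h2 _ ht _ m1
      rw [e1] at e2
      linear_combination (e2 - h2 _ ht _ m0) / 2

theorem not_even {γ : ℝ → X} (hγ : CG γ) (b : ℝ) : ¬ ∀ t, γ (-t) = γ (t + b) := by
  obtain ⟨⟨a, a0, δ, h0, hδ⟩, -⟩ := hγ
  intro h
  have e1 : |(δ - b) / 2 + b - -((δ - b) / 2)| = δ := by
    rw [show (δ - b) / 2 + b - -((δ - b) / 2) = δ by ring, abs_of_pos h0]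
  have e2 := hδ _ _ e1.le
  rw [h, dist_self, e1] at e2
  exact (mul_pos a0 h0).ne e2

theorem per_half {γ : ℝ → X} (hγ : CG γ) {b1 b2 : ℝ} (h1 : ∀ t, γ (t + b1 + b1) = γ t)
    (h2 : ∀ t, γ (t + b2 + b2) = γ t) :
    γ b1 = γ 0 ∨ γ b2 = γ 0 ∨ γ (b1 + b2) = γ 0 := by
  obtain ⟨⟨a, a0, δ, h0, hδ⟩, -⟩ := hγ
  let H : AddSubgroup ℝ :=
    { carrier := {x | ∀ t, γ (t + x) = γ t}
      add_mem' := fun {x y} hx hy t => by rw [← add_assoc, hy, hx]
      zero_mem' := fun t => by rw [add_zero]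
      neg_mem' := fun {x} hx t => by rw [← hx, neg_add_cancel_right] }
  obtain ⟨L, hL⟩ := AddSubgroup.cyclic_of_isolated_zero (H := H) h0 (disjoint_left.2 fun x hx hx' => by
    have e1 := hδ (0 + x) 0 (by rw [zero_add, sub_zero, abs_of_pos hx'.1]; exact hx'.2.le)
    rw [hx 0, dist_self, zero_add, sub_zero, abs_of_pos hx'.1] at e1
    exact (mul_pos a0 hx'.1).ne e1)
  have h3 : ∀ x, x ∈ H ↔ ∃ m : ℤ, m * L = x := fun x => by
    simp only [hL, AddSubgroup.mem_closure_singleton, zsmul_eq_mul]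
  have h4 : ∀ (x : ℝ) (m : ℤ), m * L = x → γ x = γ 0 := fun x m hm => by
    simpa only [zero_add] using (h3 x).2 ⟨m, hm⟩ 0
  obtain ⟨m1, e1⟩ := (h3 (b1 + b1)).1 fun t => by rw [← add_assoc, h1]
  obtain ⟨m2, e2⟩ := (h3 (b2 + b2)).1 fun t => by rw [← add_assoc, h2]
  rcases Int.even_or_odd' m1 with ⟨k1, rfl | rfl⟩
  · exact Or.inl (h4 _ k1 (by push_cast at e1; linarith))
  · rcases Int.even_or_odd' m2 with ⟨k2, rfl | rfl⟩
    · exact Or.inr (Or.inl (h4 _ k2 (by push_cast at e2; linarith)))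
    · exact Or.inr (Or.inr (h4 _ (k1 + k2 + 1) (by push_cast at e1 e2 ⊢; linarith)))

end Vale.Agent.P216
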